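import Vale.Agent.P290.H686.Lin
import Vale.Agent.P290.H445.Bridge
import Vale.Agent.P290.H867.XbK3

/-! P290 / H686 (package DIFFEO): the identity from a K3 surface to its twist is an orientation
preserving real diffeomorphism. -/

set_option linter.unusedVariables false
set_option linter.unusedSectionVars false
set_option linter.unusedSimpArgs false

open scoped Manifold ContDiff ComplexConjugate Matrix Topology
open MeasureTheory Set Filter
open Vale.Agent.P290.H867 Vale.Agent.P290.H445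
open Vale.Agent.P267 (FL.C2)

noncomputable section

namespace Vale.Agent.P290.H686

/-- real smooth maps between K3 surfaces, from the charts in `ℂ × ℂ` -/
theorem isSm_of_charts {X Y : All.K3} {f : X.X → Y.X} (hc : Continuous f)
    (h : ∀ e ∈ atlas (ℂ × ℂ) X.X, ∀ e' ∈ atlas (ℂ × ℂ) Y.X, ∀ x ∈ e.source, f x ∈ e'.source →
      ContDiffAt ℝ ∞ (fun z => e' (f (e.symm z))) (e x)) : IsSm f := by
  refine ⟨hc, ?_⟩
  rintro _ ⟨e, he, rfl⟩ _ ⟨e', he', rfl⟩ x hx hx'
  have h1 := h e he e' he' x hx hx'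
  have h2 : ContDiffAt ℝ ∞ (fun z : FL.C2 => (H445.φ.symm z : ℂ × ℂ)) (toFL e x) :=
    (H445.φ.symm.contDiff (n := ∞)).restrict_scalars ℝ |>.contDiffAt
  have h3 : ContDiffAt ℝ ∞ (fun z : ℂ × ℂ => H445.φ z) (e' (f x)) :=
    (H445.φ.contDiff (n := ∞)).restrict_scalars ℝ |>.contDiffAt
  have e1 : H445.φ.symm (toFL e x) = e x := H445.φ.symm_apply_apply (e x)
  have h1' : ContDiffAt ℝ ∞ (fun z => e' (f (e.symm z))) (H445.φ.symm (toFL e x)) := by
    rw [e1]; exact h1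
  have h4 : ContDiffAt ℝ ∞ (fun z : FL.C2 => e' (f (e.symm (H445.φ.symm z)))) (toFL e x) :=
    ContDiffAt.comp (g := fun z => e' (f (e.symm z))) _ h1' h2
  have h3' : ContDiffAt ℝ ∞ (fun z : ℂ × ℂ => H445.φ z)
      ((fun z : FL.C2 => e' (f (e.symm (H445.φ.symm z)))) (toFL e x)) := by
    simp only [e1, e.left_inv hx]
    exact h3
  exact ContDiffAt.comp (g := fun z : ℂ × ℂ => H445.φ z) _ h3' h4

/-- the real Jacobian determinant in the two kinds of charts -/
theorem det_rep_toFL {X Y : All.K3} {f : X.X → Y.X} {e : OpenPartialHomeomorph X.X (ℂ × ℂ)}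
    {e' : OpenPartialHomeomorph Y.X (ℂ × ℂ)} {x : X.X}
    (h : DifferentiableAt ℝ (fun z => e' (f (e.symm z))) (e x)) :
    (fderiv ℝ (rep f (toFL e) (toFL e')) (toFL e x)).det =
      (fderiv ℝ (fun z => e' (f (e.symm z))) (e x)).det := by
  let Φ : (ℂ × ℂ) ≃L[ℝ] FL.C2 := (ContinuousLinearEquiv.finTwoArrow ℝ ℂ).symm
  have e1 : Φ.symm (toFL e x) = e x := H445.φ.symm_apply_apply (e x)
  have h1 : HasFDerivAt (rep f (toFL e) (toFL e'))
      ((Φ : ℂ × ℂ →L[ℝ] FL.C2).comp ((fderiv ℝ (fun z => e' (f (e.symm z))) (e x)).comp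
        (Φ.symm : FL.C2 →L[ℝ] ℂ × ℂ))) (toFL e x) := by
    have h2 : HasFDerivAt (fun z => e' (f (e.symm z)))
        (fderiv ℝ (fun z => e' (f (e.symm z))) (e x)) (Φ.symm (toFL e x)) := by
      rw [e1]; exact h.hasFDerivAt
    have h3 : HasFDerivAt (fun z : FL.C2 => e' (f (e.symm (Φ.symm z))))
        ((fderiv ℝ (fun z => e' (f (e.symm z))) (e x)).comp
        (Φ.symm : FL.C2 →L[ℝ] ℂ × ℂ)) (toFL e x) :=
      HasFDerivAt.comp (g := fun z => e' (f (e.symm z))) _ h2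
        (Φ.symm : FL.C2 →L[ℝ] ℂ × ℂ).hasFDerivAt
    exact HasFDerivAt.comp (g := fun z => Φ z) _ (Φ : ℂ × ℂ →L[ℝ] FL.C2).hasFDerivAt h3
  rw [h1.fderiv]
  exact LinearMap.det_conj _ Φ.toLinearEquiv

/-- orientation preserving diffeomorphisms between K3 surfaces, from the charts in `ℂ × ℂ` -/
theorem isDiffeo_of_charts {X Y : All.K3} (f : X.X ≃ₜ Y.X)
    (h : ∀ e ∈ atlas (ℂ × ℂ) X.X, ∀ e' ∈ atlas (ℂ × ℂ) Y.X, ∀ x ∈ e.source, f x ∈ e'.source →
      ContDiffAt ℝ ∞ (fun z => e' (f (e.symm z))) (e x))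
    (h' : ∀ e ∈ atlas (ℂ × ℂ) Y.X, ∀ e' ∈ atlas (ℂ × ℂ) X.X, ∀ x ∈ e.source,
      f.symm x ∈ e'.source → ContDiffAt ℝ ∞ (fun z => e' (f.symm (e.symm z))) (e x))
    (hp : ∀ x : X.X, ∃ e ∈ atlas (ℂ × ℂ) X.X, ∃ e' ∈ atlas (ℂ × ℂ) Y.X, x ∈ e.source ∧
      f x ∈ e'.source ∧ 0 < (fderiv ℝ (fun z => e' (f (e.symm z))) (e x)).det) :
    IsDiffeo f where
  smooth := isSm_of_charts f.continuous h
  smooth' := isSm_of_charts f.symm.continuous h'
  pos := by
    intro x
    obtain ⟨e, he, e', he', hx, hx', hd⟩ := hp x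
    refine det_Df_pos (isSm_of_charts f.continuous h) (mem_atlas_toFL X he)
      (mem_atlas_toFL Y he') hx hx' ?_
    rw [det_rep_toFL ((h e he e' he' x hx hx').differentiableAt (by simp))]
    exact hd

/-- orientation preserving real diffeomorphism between K3 surfaces -/
structure K3Diffeo (X Y : All.K3) where
  homeo : X.X ≃ₜ Y.X
  diffeo : IsDiffeo homeo

/-- the inverse -/
def K3Diffeo.symm {X Y : All.K3} (F : K3Diffeo X Y) : K3Diffeo Y X := ⟨F.homeo.symm, F.diffeo.symm⟩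

section tw

variable {X : All.K3} {C : Type} [TopologicalSpace C] {π : X.X → C} (D : TwData X.volForm π)
  (hπ : Continuous π)

/-- the identity from a K3 surface to its twist is an orientation preserving diffeomorphism -/
def twDiffeo : K3Diffeo X (D.k3 hπ) := by
  refine ⟨D.homeo, isDiffeo_of_charts (X := X) (Y := D.k3 hπ) D.homeo ?_ ?_ ?_⟩
  · rintro e he _ ⟨a, e', he', rfl⟩ x hx hx'
    have h := (D.mem_ch_source hπ).1 hx'
    exact D.smooth a x h.1 e he e' he' hx h.2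
  · rintro _ ⟨a, e', he', rfl⟩ e he x hx hx'
    have h := (D.mem_ch_source hπ).1 hx
    have hb : π (D.Ψ a x) = π x := D.base a x h.1
    have hi : D.Ψ' a (D.Ψ a x) = x := D.left_inv a x h.1
    exact D.smooth' a (D.Ψ a x) (by rw [hb]; exact h.1) e' he' e he h.2
      (by rw [hi]; exact hx')
  · intro x
    have hax : π x ∈ D.O (D.idx (π x)) := D.idx_mem (π x)
    exact ⟨chartAt (ℂ × ℂ) x, chart_mem_atlas _ x,
      D.ch hπ (D.idx (π x)) (chartAt (ℂ × ℂ) (D.Ψ (D.idx (π x)) x)),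
      ⟨_, _, chart_mem_atlas _ _, rfl⟩, mem_chart_source _ x,
      (D.mem_ch_source hπ).2 ⟨hax, mem_chart_source _ _⟩,
      D.jac _ x hax _ (chart_mem_atlas _ x) _ (chart_mem_atlas _ _) (mem_chart_source _ x)
        (mem_chart_source _ _)⟩

@[simp] theorem twDiffeo_apply (x : X.X) : (twDiffeo D hπ).homeo x = x := rfl

@[simp] theorem twDiffeo_symm_apply (x : X.X) : (twDiffeo D hπ).homeo.symm x = x := rfl

end tw

end Vale.Agent.P290.H686
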