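import Vale.Agent.P290.H686.Wedge
import Vale.Agent.P267.H928.Int.FL

/-! P290 / H686 (package DIFFEO): the integral of top forms is invariant under orientation
preserving real diffeomorphisms of compact complex surfaces. -/

set_option linter.unusedVariables false
set_option linter.unusedSectionVars false
set_option linter.unusedSimpArgs false

open scoped Manifold ContDiff ComplexConjugate Matrix
open MeasureTheory Set Filter Topology
open Vale.Agent.P267.FL

noncomputable section

namespace Vale.Agent.P290.H686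

variable {X : Type*} [TopologicalSpace X] [ChartedSpace C2 X] [IsManifold 𝓘(ℂ, C2) ω X]
variable {Y : Type*} [TopologicalSpace Y] [ChartedSpace C2 Y] [IsManifold 𝓘(ℂ, C2) ω Y]
variable {Z : Type*} [TopologicalSpace Z] [ChartedSpace C2 Z] [IsManifold 𝓘(ℂ, C2) ω Z]

/-! ### chart formula for top forms -/

theorem Dch_det {e : Ch X} (he : e ∈ atlas C2 X) {x : X} (hx : x ∈ e.source) :
    (Dch e x).det = Complex.normSq (jac e x).det := by
  have h := det_chg he (chart_mem_atlas C2 x) (e.map_source hx)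
    (by rw [e.left_inv hx]; exact mem_chart_source C2 x)
  rw [e.left_inv hx] at h
  exact h

theorem loc2_eq {e : Ch X} (he : e ∈ atlas C2 X) {x : X} (hx : x ∈ e.source) (b : X → ℂ) :
    loc2 1 e b (e x) = ((Dch e x).det : ℂ) * b x := by
  rw [Dch_det he hx, loc2, e.left_inv hx, zpow_one, smul_smul, Complex.mul_conj, smul_eq_mul]

theorem det_comp' (L M : C2 →L[ℝ] C2) : (L.comp M).det = L.det * M.det := by
  simp only [ContinuousLinearMap.det]
  exact LinearMap.det_comp _ _

theorem Dch_det_ne {e : Ch X} (he : e ∈ atlas C2 X) {x : X} (hx : x ∈ e.source) :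
    (Dch e x).det ≠ 0 := by
  have h := Dch_comp (chart_mem_atlas C2 x) he (mem_chart_source C2 x) hx
  rw [Dch_chartAt] at h
  have h1 := congrArg ContinuousLinearMap.det h
  rw [det_comp'] at h1
  have : (ContinuousLinearMap.id ℝ C2).det = 1 := by
    rw [ContinuousLinearMap.det]
    exact LinearMap.det_id
  rw [this] at h1
  intro h0
  rw [h0, zero_mul] at h1
  exact one_ne_zero h1

theorem Dch_det_pos {e : Ch X} (he : e ∈ atlas C2 X) {x : X} (hx : x ∈ e.source) :
    0 < (Dch e x).det :=
  lt_of_le_of_ne (by rw [Dch_det he hx]; exact Complex.normSq_nonneg _) (Dch_det_ne he hx).symm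

/-- chart formula for the pullback of a top form -/
theorem loc2_pbT {φ : X → Y} (hφ : IsSm φ) (b : Y → ℂ) {e : Ch X} (he : e ∈ atlas C2 X) {e' : Ch Y}
    (he' : e' ∈ atlas C2 Y) {x : X} (hx : x ∈ e.source) (hx' : φ x ∈ e'.source) :
    loc2 1 e (pbT φ b) (e x) =
      ((fderiv ℝ (rep φ e e') (e x)).det : ℂ) * loc2 1 e' b (rep φ e e' (e x)) := by
  rw [rep_apply φ e' hx, loc2_eq he hx, loc2_eq he' hx', pbT]
  have h := congrArg ContinuousLinearMap.det (Df_Dch hφ he he' hx hx')
  rw [det_comp', det_comp'] at h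
  have h' : ((Df φ x).det : ℂ) * ((Dch e x).det : ℂ) =
      ((Dch e' (φ x)).det : ℂ) * ((fderiv ℝ (rep φ e e') (e x)).det : ℂ) := by
    exact_mod_cast h
  linear_combination b (φ x) * h'

theorem det_rep_pos {φ : X → Y} (hφ : IsSm φ) {e : Ch X} (he : e ∈ atlas C2 X) {e' : Ch Y}
    (he' : e' ∈ atlas C2 Y) {x : X} (hx : x ∈ e.source) (hx' : φ x ∈ e'.source)
    (h : 0 < (Df φ x).det) : 0 < (fderiv ℝ (rep φ e e') (e x)).det := by
  have h1 := congrArg ContinuousLinearMap.det (Df_Dch hφ he he' hx hx')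
  rw [det_comp', det_comp'] at h1
  have h2 : 0 < (Dch e' (φ x)).det * (fderiv ℝ (rep φ e e') (e x)).det := by
    rw [← h1]
    exact mul_pos h (Dch_det_pos he hx)
  exact (pos_iff_pos_of_mul_pos h2).1 (Dch_det_pos he' hx')

theorem det_Df_pos {φ : X → Y} (hφ : IsSm φ) {e : Ch X} (he : e ∈ atlas C2 X) {e' : Ch Y}
    (he' : e' ∈ atlas C2 Y) {x : X} (hx : x ∈ e.source) (hx' : φ x ∈ e'.source)
    (h : 0 < (fderiv ℝ (rep φ e e') (e x)).det) : 0 < (Df φ x).det := by
  have h1 := congrArg ContinuousLinearMap.det (Df_Dch hφ he he' hx hx')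
  rw [det_comp', det_comp'] at h1
  have h2 : 0 < (Df φ x).det * (Dch e x).det := by
    rw [h1]
    exact mul_pos (Dch_det_pos he' hx') h
  exact (pos_iff_pos_of_mul_pos h2).2 (Dch_det_pos he hx)

/-- orientation preserving real diffeomorphism -/
structure IsDiffeo (φ : X ≃ₜ Y) : Prop where
  smooth : IsSm φ
  smooth' : IsSm φ.symm
  pos : ∀ x, 0 < (Df φ x).det

theorem IsDiffeo.symm {φ : X ≃ₜ Y} (h : IsDiffeo φ) : IsDiffeo φ.symm where
  smooth := h.smooth'
  smooth' := h.smooth
  pos y := by
    have h1 := Df_comp h.smooth h.smooth' y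
    have h2 : Df (fun x => φ (φ.symm x)) y = ContinuousLinearMap.id ℝ C2 := by
      have : (fun x => φ (φ.symm x)) = fun x => x := by
        funext x
        exact φ.apply_symm_apply x
      rw [this]
      exact Df_id y
    have h3 := congrArg ContinuousLinearMap.det h1
    rw [h2, det_comp'] at h3
    have h4 : (ContinuousLinearMap.id ℝ C2).det = 1 := by
      rw [ContinuousLinearMap.det]
      exact LinearMap.det_id
    rw [h4] at h3
    have h5 : 0 < (Df φ (φ.symm y)).det * (Df φ.symm y).det := by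
      rw [← h3]
      exact one_pos
    exact (pos_iff_pos_of_mul_pos h5).1 (h.pos _)

theorem isDiffeo_refl : IsDiffeo (Homeomorph.refl X) where
  smooth := isSm_id
  smooth' := isSm_id
  pos x := by
    have : Df (Homeomorph.refl X) x = ContinuousLinearMap.id ℝ C2 := Df_id x
    rw [this, ContinuousLinearMap.det]
    have h : LinearMap.det ((ContinuousLinearMap.id ℝ C2 : C2 →L[ℝ] C2) : C2 →ₗ[ℝ] C2) = 1 :=
      LinearMap.det_id
    rw [h]
    exact one_pos

theorem IsDiffeo.trans {φ : X ≃ₜ Y} {ψ : Y ≃ₜ Z} (h : IsDiffeo φ) (h' : IsDiffeo ψ) :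
    IsDiffeo (φ.trans ψ) where
  smooth := h'.smooth.comp h.smooth
  smooth' := h.smooth'.comp h'.smooth'
  pos x := by
    have h1 : Df (φ.trans ψ) x = (Df ψ (φ x)).comp (Df φ x) := Df_comp h'.smooth h.smooth x
    rw [h1, det_comp']
    exact mul_pos (h'.pos _) (h.pos _)

/-! ### continuity -/

theorem reg2_pbT {φ : X → Y} (hφ : IsSm φ) {b : Y → ℂ} (hb : Reg2 0 1 b) : Reg2 0 1 (pbT φ b) := by
  intro e he
  rw [contDiffOn_zero]
  intro z hz
  refine ContinuousAt.continuousWithinAt ?_
  obtain ⟨x, hx, rfl⟩ : ∃ x ∈ e.source, e x = z := ⟨e.symm z, e.map_target hz, e.right_inv hz⟩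
  set e' := chartAt C2 (φ x) with he'd
  have he' : e' ∈ atlas C2 Y := chart_mem_atlas C2 (φ x)
  have hx' : φ x ∈ e'.source := mem_chart_source C2 (φ x)
  have h1 : ContDiffAt ℝ ∞ (rep φ e e') (e x) := hφ.2 e he e' he' x hx hx'
  have h2 : ContinuousAt (fun z => ((fderiv ℝ (rep φ e e') z).det : ℂ) *
      loc2 1 e' b (rep φ e e' z)) (e x) := by
    refine ContinuousAt.mul ?_ ?_
    · have h3 : ContinuousAt (fderiv ℝ (rep φ e e')) (e x) :=
        (h1.fderiv_right (m := ∞) infty_sub).continuousAt
      have h4 : ContinuousAt (fun z => (fderiv ℝ (rep φ e e') z).det) (e x) :=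
        ContinuousLinearMap.continuous_det.continuousAt.comp h3
      exact Complex.continuous_ofReal.continuousAt.comp h4
    · have h5 : ContinuousAt (loc2 1 e' b) (rep φ e e' (e x)) := by
        rw [rep_apply φ e' hx]
        exact (hb e' he').continuousOn.continuousAt (e'.open_target.mem_nhds (e'.map_source hx'))
      exact ContinuousAt.comp (g := loc2 1 e' b) h5 h1.continuousAt
  refine h2.congr ?_
  filter_upwards [rep_eventually hφ.1 e e' hx hx'] with z hz
  have := loc2_pbT hφ b he he' (e.map_target hz.1) hz.2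
  rw [e.right_inv hz.1] at this
  exact this.symm

/-! ### the change of variables in a pair of charts -/

theorem integral_term (φ : X ≃ₜ Y) (hφ : IsDiffeo φ) (b : Y → ℂ) {e : Ch X} (he : e ∈ atlas C2 X)
    {e' : Ch Y} (he' : e' ∈ atlas C2 Y) (R : X → ℝ) (hR : ∀ x, R x ≠ 0 → x ∈ e.source)
    (hR' : ∀ x, R x ≠ 0 → φ x ∈ e'.source) :
    ∫ z in e.target, R (e.symm z) • loc2 1 e (pbT φ b) z =
      ∫ w in e'.target, R (φ.symm (e'.symm w)) • loc2 1 e' b w := by
  set S : Set C2 := {z | z ∈ e.target ∧ φ (e.symm z) ∈ e'.source} with hS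
  have hSo : IsOpen S := by
    have h1 : ContinuousOn (fun z => φ (e.symm z)) e.target :=
      φ.continuous.comp_continuousOn e.continuousOn_symm
    exact h1.isOpen_inter_preimage e.open_target e'.open_source
  have hSt : S ⊆ e.target := fun z hz => hz.1
  have himS : rep φ e e' '' S ⊆ e'.target := by
    rintro w ⟨z, hz, rfl⟩
    exact e'.map_source hz.2
  have h1 : ∫ z in e.target, R (e.symm z) • loc2 1 e (pbT φ b) z =
      ∫ z in S, R (e.symm z) • loc2 1 e (pbT φ b) z := by
    refine setIntegral_eq_of_subset_of_forall_diff_eq_zero e.open_target.measurableSet hSt ?_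
    rintro z ⟨hz, hz'⟩
    have : R (e.symm z) = 0 := by
      by_contra h
      exact hz' ⟨hz, hR' _ h⟩
    rw [this, zero_smul]
  have h2 : ∫ w in e'.target, R (φ.symm (e'.symm w)) • loc2 1 e' b w =
      ∫ w in rep φ e e' '' S, R (φ.symm (e'.symm w)) • loc2 1 e' b w := by
    refine setIntegral_eq_of_subset_of_forall_diff_eq_zero e'.open_target.measurableSet himS ?_
    rintro w ⟨hw, hw'⟩
    have : R (φ.symm (e'.symm w)) = 0 := by
      by_contra h
      refine hw' ⟨e (φ.symm (e'.symm w)), ⟨e.map_source (hR _ h), ?_⟩, ?_⟩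
      · rw [e.left_inv (hR _ h)]
        exact hR' _ h
      · rw [rep, e.left_inv (hR _ h), φ.apply_symm_apply, e'.right_inv hw]
    rw [this, zero_smul]
  have hd : ∀ z ∈ S, HasFDerivWithinAt (rep φ e e') (fderiv ℝ (rep φ e e') z) S z := by
    intro z hz
    have h3 := hφ.smooth.2 e he e' he' (e.symm z) (e.map_target hz.1) hz.2
    rw [e.right_inv hz.1] at h3
    exact (h3.differentiableAt (by simp)).hasFDerivAt.hasFDerivWithinAt
  have hinj : InjOn (rep φ e e') S := by
    intro z hz w hw h
    have h3 : φ (e.symm z) = φ (e.symm w) := e'.injOn hz.2 hw.2 h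
    have h4 : e.symm z = e.symm w := φ.injective h3
    have h5 := congrArg e h4
    rwa [e.right_inv hz.1, e.right_inv hw.1] at h5
  rw [h1, h2, integral_image_eq_integral_abs_det_fderiv_smul volume hSo.measurableSet hd hinj]
  refine setIntegral_congr_fun hSo.measurableSet fun z hz => ?_
  have h6 := loc2_pbT hφ.smooth b he he' (e.map_target hz.1) hz.2
  have h7 := det_rep_pos hφ.smooth he he' (e.map_target hz.1) hz.2 (hφ.pos _)
  rw [e.right_inv hz.1] at h6 h7
  have h8 : φ.symm (e'.symm (rep φ e e' z)) = e.symm z := by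
    rw [rep, e'.left_inv hz.2, φ.symm_apply_apply]
  simp only [h8]
  rw [h6, abs_of_pos h7]
  simp only [Complex.real_smul]
  ring

/-! ### invariance of the integral -/

section compact

variable [T2Space X] [CompactSpace X] [T2Space Y] [CompactSpace Y]

theorem hasCompactSupport_of_compactSpace {W : Type*} [Zero W] (b : X → W) : HasCompactSupport b :=
  (isClosed_tsupport b).isCompact

/-- invariance of the integral of top forms -/
theorem intX_pbT (φ : X ≃ₜ Y) (hφ : IsDiffeo φ) {b : Y → ℂ} (hb : Reg2 0 1 b) :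
    intX (pbT φ b) = intX b := by
  have hb' : Reg2 0 1 (pbT φ b) := reg2_pbT hφ.smooth hb
  have cX : HasCompactSupport (pbT φ b) := hasCompactSupport_of_compactSpace _
  have cY : HasCompactSupport b := hasCompactSupport_of_compactSpace _
  rw [intX_eq_intV (integrableX_of_reg hb' cX) cX, intX_eq_intV (integrableX_of_reg hb cY) cY]
  obtain ⟨N, e, r, he, hr, -, hrs, hsum⟩ := exists_finite_pou (isCompact_univ (X := X))
  obtain ⟨M, e', r', he', hr', -, hrs', hsum'⟩ := exists_finite_pou (isCompact_univ (X := Y))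
  have bX : ∀ f : X → ℝ, Continuous f → ∃ C, ∀ x, |f x| ≤ C := fun f hf => by
    obtain ⟨C, hC⟩ := isCompact_univ.exists_bound_of_continuousOn hf.continuousOn
    exact ⟨C, fun x => hC x (mem_univ x)⟩
  have bY : ∀ f : Y → ℝ, Continuous f → ∃ C, ∀ x, |f x| ≤ C := fun f hf => by
    obtain ⟨C, hC⟩ := isCompact_univ.exists_bound_of_continuousOn hf.continuousOn
    exact ⟨C, fun x => hC x (mem_univ x)⟩
  have ccX : ∀ p : Fin N × Fin M, Continuous fun x => r p.1 x * r' p.2 (φ x) := fun p =>
    (hr p.1).mul ((hr' p.2).comp φ.continuous)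
  have ccY : ∀ p : Fin N × Fin M, Continuous fun y => r p.1 (φ.symm y) * r' p.2 y := fun p =>
    ((hr p.1).comp φ.symm.continuous).mul (hr' p.2)
  have sX : ∀ i, Function.support (r i) ⊆ (e i).source := fun i => (subset_tsupport _).trans (hrs i)
  have sY : ∀ i, Function.support (r' i) ⊆ (e' i).source := fun i => (subset_tsupport _).trans (hrs' i)
  rw [intV_eq_sum (integrableX_of_reg hb' cX) (fun p : Fin N × Fin M => e p.1)
      (fun p => he p.1) (fun p x => r p.1 x * r' p.2 (φ x)) ccX (fun p => bX _ (ccX p))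
      (fun p x hx => sX p.1 (left_ne_zero_of_mul hx)) (fun x _ => ?_),
    intV_eq_sum (integrableX_of_reg hb cY) (fun p : Fin N × Fin M => e' p.2)
      (fun p => he' p.2) (fun p y => r p.1 (φ.symm y) * r' p.2 y) ccY (fun p => bY _ (ccY p))
      (fun p x hx => sY p.2 (right_ne_zero_of_mul hx)) (fun x _ => ?_)]
  · congr 1
    refine Finset.sum_congr rfl fun p _ => ?_
    have := integral_term φ hφ b (he p.1) (he' p.2) (fun x => r p.1 x * r' p.2 (φ x))
      (fun x hx => sX p.1 (left_ne_zero_of_mul hx)) (fun x hx => sY p.2 (right_ne_zero_of_mul hx))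
    simp only [φ.apply_symm_apply] at this
    exact this
  · rw [Fintype.sum_prod_type]
    simp only [← Finset.mul_sum]
    rw [← Finset.sum_mul, hsum _ (mem_univ _), hsum' _ (mem_univ _), one_mul]
  · rw [Fintype.sum_prod_type]
    simp only [← Finset.mul_sum]
    rw [← Finset.sum_mul, hsum _ (mem_univ _), hsum' _ (mem_univ _), one_mul]

/-- invariance of the intersection pairing of two-forms -/
theorem intX_wedge_pb2 (φ : X ≃ₜ Y) (hφ : IsDiffeo φ) {F G : TwoF Y}
    (hFG : Reg2 0 1 (F.wedge G)) :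
    intX ((pb2 φ F).wedge (pb2 φ G)) = intX (F.wedge G) := by
  rw [wedge_pb2, intX_pbT φ hφ hFG]

end compact

end Vale.Agent.P290.H686
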