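import Vale.Agent.P290.H686.Ev

/-! P290 / H686 (package DIFFEO): exterior derivative = antisymmetrised derivative, and its
compatibility with pullback by a `C^2` map. -/

set_option linter.unusedVariables false
set_option linter.unusedSectionVars false
set_option linter.unusedSimpArgs false

open scoped Manifold ContDiff ComplexConjugate Matrix
open MeasureTheory Set Filter Topology
open Vale.Agent.P267.FL

noncomputable section

namespace Vale.Agent.P290.H686

instance instB : IsBoundedSMul ℂ (C2 →L[ℝ] C2 →L[ℝ] ℂ) :=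
  @NormedSpace.toIsBoundedSMul ℂ (C2 →L[ℝ] C2 →L[ℝ] ℂ) _ _ ContinuousLinearMap.toNormedSpace

/-- exterior derivative of a one-form (antisymmetrised derivative) -/
def alt1 (A : C2 → C2 →L[ℝ] ℂ) (z v w : C2) : ℂ := fderiv ℝ A z v w - fderiv ℝ A z w v

/-- exterior derivative of a two-form -/
def alt2 (F : C2 → C2 →L[ℝ] C2 →L[ℝ] ℂ) (z u v w : C2) : ℂ :=
  fderiv ℝ F z u v w + fderiv ℝ F z v w u + fderiv ℝ F z w u v

theorem contDiffAt_ev1 {n : WithTop ℕ∞} {c a : C2 → Fin 2 → ℂ} {z : C2}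
    (hc : ∀ i, ContDiffAt ℝ n (fun y => c y i) z) (ha : ∀ i, ContDiffAt ℝ n (fun y => a y i) z) :
    ContDiffAt ℝ n (fun y => ev1 (c y) (a y)) z := by
  unfold ev1
  refine ContDiffAt.sum fun i _ => ?_
  exact ((hc i).smul contDiffAt_const).add ((ha i).smul contDiffAt_const)

theorem differentiableAt_ev1 {c a : C2 → Fin 2 → ℂ} {z : C2}
    (hc : ∀ i, DifferentiableAt ℝ (fun y => c y i) z)
    (ha : ∀ i, DifferentiableAt ℝ (fun y => a y i) z) :
    DifferentiableAt ℝ (fun y => ev1 (c y) (a y)) z := by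
  unfold ev1
  refine DifferentiableAt.fun_sum fun i _ => ?_
  exact ((hc i).smul_const _).add ((ha i).smul_const _)

theorem contDiffAt_ev2 {n : WithTop ℕ∞} {f h : C2 → ℂ} {g : C2 → Matrix (Fin 2) (Fin 2) ℂ} {z : C2}
    (hf : ContDiffAt ℝ n f z) (hg : ∀ i j, ContDiffAt ℝ n (fun y => g y i j) z)
    (hh : ContDiffAt ℝ n h z) : ContDiffAt ℝ n (fun y => ev2 (f y) (g y) (h y)) z := by
  unfold ev2
  refine ((hf.smul contDiffAt_const).add ?_).add (hh.smul contDiffAt_const)
  refine ContDiffAt.sum fun i _ => ContDiffAt.sum fun j _ => ?_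
  exact (hg i j).smul contDiffAt_const

theorem differentiableAt_ev2 {f h : C2 → ℂ} {g : C2 → Matrix (Fin 2) (Fin 2) ℂ} {z : C2}
    (hf : DifferentiableAt ℝ f z) (hg : ∀ i j, DifferentiableAt ℝ (fun y => g y i j) z)
    (hh : DifferentiableAt ℝ h z) : DifferentiableAt ℝ (fun y => ev2 (f y) (g y) (h y)) z := by
  unfold ev2
  refine ((hf.smul_const (w2 (dZ 0) (dZ 1))).add ?_).add (hh.smul_const (w2 (dZb 0) (dZb 1)))
  refine DifferentiableAt.fun_sum fun i _ => DifferentiableAt.fun_sum fun j _ => ?_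
  exact (hg i j).smul_const (w2 (dZ i) (dZb j))

/-- continuity of the components of a one-form -/
theorem contDiffAt_k10 {n : WithTop ℕ∞} {A : C2 → C2 →L[ℝ] ℂ} {z : C2} (hA : ContDiffAt ℝ n A z)
    (i : Fin 2) : ContDiffAt ℝ n (fun y => k10 i (A y)) z := by
  unfold k10
  exact contDiffAt_const.mul ((hA.clm_apply contDiffAt_const).sub
    (contDiffAt_const.mul (hA.clm_apply contDiffAt_const)))

theorem contDiffAt_k01 {n : WithTop ℕ∞} {A : C2 → C2 →L[ℝ] ℂ} {z : C2} (hA : ContDiffAt ℝ n A z)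
    (i : Fin 2) : ContDiffAt ℝ n (fun y => k01 i (A y)) z := by
  unfold k01
  exact contDiffAt_const.mul ((hA.clm_apply contDiffAt_const).add
    (contDiffAt_const.mul (hA.clm_apply contDiffAt_const)))

theorem contDiffAt_c20 {n : WithTop ℕ∞} {F : C2 → C2 →L[ℝ] C2 →L[ℝ] ℂ} {z : C2}
    (hF : ContDiffAt ℝ n F z) : ContDiffAt ℝ n (fun y => c20 fun v => F y v) z := by
  have h : ∀ v, ContDiffAt ℝ n (fun y => k10 1 (F y v)) z := fun v =>
    contDiffAt_k10 (hF.clm_apply contDiffAt_const) 1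
  unfold c20
  conv =>
    enter [3, y]
    rw [k10]
  exact contDiffAt_const.mul ((h _).sub (contDiffAt_const.mul (h _)))

theorem contDiffAt_c02 {n : WithTop ℕ∞} {F : C2 → C2 →L[ℝ] C2 →L[ℝ] ℂ} {z : C2}
    (hF : ContDiffAt ℝ n F z) : ContDiffAt ℝ n (fun y => c02 fun v => F y v) z := by
  have h : ∀ v, ContDiffAt ℝ n (fun y => k01 1 (F y v)) z := fun v =>
    contDiffAt_k01 (hF.clm_apply contDiffAt_const) 1
  unfold c02
  conv =>
    enter [3, y]
    rw [k01]
  exact contDiffAt_const.mul ((h _).add (contDiffAt_const.mul (h _)))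

theorem contDiffAt_c11 {n : WithTop ℕ∞} {F : C2 → C2 →L[ℝ] C2 →L[ℝ] ℂ} {z : C2}
    (hF : ContDiffAt ℝ n F z) (i j : Fin 2) :
    ContDiffAt ℝ n (fun y => c11 (fun v => F y v) i j) z := by
  have h : ∀ v, ContDiffAt ℝ n (fun y => k01 j (F y v)) z := fun v =>
    contDiffAt_k01 (hF.clm_apply contDiffAt_const) j
  simp only [c11, Matrix.of_apply]
  conv =>
    enter [3, y]
    rw [k10]
  exact contDiffAt_const.mul ((h _).sub (contDiffAt_const.mul (h _)))

/-! ### `d` by types -/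

theorem alt1_ev1 {c a : C2 → Fin 2 → ℂ} {z : C2} (hc : ∀ i, DifferentiableAt ℝ (fun y => c y i) z)
    (ha : ∀ i, DifferentiableAt ℝ (fun y => a y i) z) (v w : C2) :
    alt1 (fun y => ev1 (c y) (a y)) z v w =
      ev2 (dz 0 (fun y => c y 1) z - dz 1 (fun y => c y 0) z)
        (Matrix.of fun i j => dz i (fun y => a y j) z - dzb j (fun y => c y i) z)
        (dzb 0 (fun y => a y 1) z - dzb 1 (fun y => a y 0) z) v w := by
  have hd := differentiableAt_ev1 hc ha
  have key : ∀ v w, fderiv ℝ (fun y => ev1 (c y) (a y)) z v w =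
      ∑ i, (fderiv ℝ (fun y => c y i) z v * w i + fderiv ℝ (fun y => a y i) z v * conj (w i)) := by
    intro v w
    have h1 : fderiv ℝ (fun y => ev1 (c y) (a y)) z v w =
        fderiv ℝ (fun y => ev1 (c y) (a y) w) z v := by
      rw [fderiv_clm_apply hd (differentiableAt_const w)]
      simp
    rw [h1]
    have h2 : (fun y => ev1 (c y) (a y) w) =
        fun y => ∑ i, (c y i * w i + a y i * conj (w i)) := by
      funext y
      rw [ev1_apply]
    have h3 : ∀ i, HasFDerivAt (fun y => c y i * w i + a y i * conj (w i))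
        (w i • fderiv ℝ (fun y => c y i) z + conj (w i) • fderiv ℝ (fun y => a y i) z) z := fun i =>
      ((hc i).hasFDerivAt.mul_const _).add ((ha i).hasFDerivAt.mul_const _)
    rw [h2, (HasFDerivAt.fun_sum fun i _ => h3 i).fderiv]
    simp only [Fin.sum_univ_two, add_apply, ContinuousLinearMap.coe_smul', Pi.smul_apply,
      smul_eq_mul]
    ring
  rw [alt1, key, key, ev2_apply]
  simp only [fderiv_eq_wirt, Fin.sum_univ_two, Matrix.of_apply, smul_eq_mul]
  ring

/-- `∑ p_j dz_0∧dz_1∧dz̄_j + ∑ q_i dz_i∧dz̄_0∧dz̄_1` -/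
def ev3 (p q : Fin 2 → ℂ) (u v w : C2) : ℂ :=
  (∑ j, p j * ((u 0 * v 1 - u 1 * v 0) * conj (w j) + (v 0 * w 1 - v 1 * w 0) * conj (u j) +
      (w 0 * u 1 - w 1 * u 0) * conj (v j))) +
    ∑ i, q i * ((conj (u 0) * conj (v 1) - conj (u 1) * conj (v 0)) * w i +
      (conj (v 0) * conj (w 1) - conj (v 1) * conj (w 0)) * u i +
      (conj (w 0) * conj (u 1) - conj (w 1) * conj (u 0)) * v i)

theorem ev3_comps (p q : Fin 2 → ℂ) (j : Fin 2) :
    k10 0 (fun u => k10 1 fun v => k01 j fun w => ev3 p q u v w) = p j ∧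
      k10 j (fun u => k01 0 fun v => k01 1 fun w => ev3 p q u v w) = q j := by
  have hI : Complex.I * Complex.I = -1 := Complex.I_mul_I
  have hI2 : Complex.I ^ 2 = -1 := by rw [sq, hI]
  have hI3 : Complex.I ^ 3 = -Complex.I := by rw [pow_succ, hI2]; ring
  have hI4 : Complex.I ^ 4 = 1 := by rw [pow_succ, hI3]; linear_combination -hI
  have hI5 : Complex.I ^ 5 = Complex.I := by rw [pow_succ, hI4]; ring
  have hI6 : Complex.I ^ 6 = -1 := by rw [pow_succ, hI5]; linear_combination hI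
  constructor
  · fin_cases j <;>
    · simp only [k10, k01, ev3, Fin.sum_univ_two]
      simp
      ring_nf
      try simp only [hI2, hI3, hI4, hI5, hI6]
      try ring
  · fin_cases j <;>
    · simp only [k10, k01, ev3, Fin.sum_univ_two]
      simp
      ring_nf
      try simp only [hI2, hI3, hI4, hI5, hI6]
      try ring

theorem ev3_eq_zero_iff (p q : Fin 2 → ℂ) :
    (∀ u v w, ev3 p q u v w = 0) ↔ (∀ j, p j = 0) ∧ ∀ i, q i = 0 := by
  constructor
  · intro h
    constructor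
    · intro j
      rw [← (ev3_comps p q j).1]
      simp [h, k10, k01]
    · intro j
      rw [← (ev3_comps p q j).2]
      simp [h, k10, k01]
  · rintro ⟨h1, h2⟩ u v w
    simp [ev3, h1, h2]

theorem alt2_ev2 {f h : C2 → ℂ} {g : C2 → Matrix (Fin 2) (Fin 2) ℂ} {z : C2}
    (hf : DifferentiableAt ℝ f z) (hg : ∀ i j, DifferentiableAt ℝ (fun y => g y i j) z)
    (hh : DifferentiableAt ℝ h z) (u v w : C2) :
    alt2 (fun y => ev2 (f y) (g y) (h y)) z u v w =
      ev3 (fun j => dzb j f z + (dz 0 (fun y => g y 1 j) z - dz 1 (fun y => g y 0 j) z))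
        (fun i => dz i h z - (dzb 0 (fun y => g y i 1) z - dzb 1 (fun y => g y i 0) z)) u v w := by
  have hd := differentiableAt_ev2 hf hg hh
  have key : ∀ u v w, fderiv ℝ (fun y => ev2 (f y) (g y) (h y)) z u v w =
      fderiv ℝ f z u * (v 0 * w 1 - v 1 * w 0) +
      (∑ i, ∑ j, fderiv ℝ (fun y => g y i j) z u * (v i * conj (w j) - conj (v j) * w i)) +
      fderiv ℝ h z u * (conj (v 0) * conj (w 1) - conj (v 1) * conj (w 0)) := by
    intro u v w
    have h1 : fderiv ℝ (fun y => ev2 (f y) (g y) (h y)) z u v w =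
        fderiv ℝ (fun y => ev2 (f y) (g y) (h y) v w) z u := by
      rw [fderiv_clm_apply (hd.clm_apply (differentiableAt_const v)) (differentiableAt_const w),
        fderiv_clm_apply hd (differentiableAt_const v)]
      simp
    rw [h1]
    have h2 : (fun y => ev2 (f y) (g y) (h y) v w) = fun y => f y * (v 0 * w 1 - v 1 * w 0) +
      (∑ i, ∑ j, g y i j * (v i * conj (w j) - conj (v j) * w i)) +
      h y * (conj (v 0) * conj (w 1) - conj (v 1) * conj (w 0)) := by
      funext y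
      rw [ev2_apply]
    simp only [Fin.sum_univ_two] at h2
    rw [h2]
    have hs : ∀ i j, HasFDerivAt (fun y => g y i j * (v i * conj (w j) - conj (v j) * w i))
        ((v i * conj (w j) - conj (v j) * w i) • fderiv ℝ (fun y => g y i j) z) z := fun i j =>
      (hg i j).hasFDerivAt.mul_const _
    have hs1 := ((hf.hasFDerivAt.mul_const (v 0 * w 1 - v 1 * w 0)).add
      (((hs 0 0).add (hs 0 1)).add ((hs 1 0).add (hs 1 1)))).add
      (hh.hasFDerivAt.mul_const (conj (v 0) * conj (w 1) - conj (v 1) * conj (w 0)))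
    have hs2 := hs1.fderiv
    have hs3 := congrArg (fun L => L u) hs2
    simp only [Fin.sum_univ_two]
    refine Eq.trans ?_ (hs3.trans ?_)
    · rfl
    · simp only [ContinuousLinearMap.add_apply, ContinuousLinearMap.smul_apply, smul_eq_mul,
        ContinuousLinearMap.coe_smul', Pi.smul_apply]
      ring
  rw [alt2, key, key, key]
  simp only [fderiv_eq_wirt, Fin.sum_univ_two, smul_eq_mul, ev3]
  ring

/-! ### pullback -/

theorem fderiv_symm {G : C2 → C2} {z : C2} (hG : ContDiffAt ℝ 2 G z) (v w : C2) :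
    fderiv ℝ (fderiv ℝ G) z v w = fderiv ℝ (fderiv ℝ G) z w v :=
  (hG.isSymmSndFDerivAt (by simp)) v w

theorem alt1_pull {A A' : C2 → C2 →L[ℝ] ℂ} {G : C2 → C2} {z : C2}
    (hA : A =ᶠ[𝓝 z] fun y => (A' (G y)).comp (fderiv ℝ G y)) (hA' : DifferentiableAt ℝ A' (G z))
    (hG : ContDiffAt ℝ 2 G z) (v w : C2) :
    alt1 A z v w = alt1 A' (G z) (fderiv ℝ G z v) (fderiv ℝ G z w) := by
  have hG1 : DifferentiableAt ℝ G z := hG.differentiableAt (by norm_num)
  have hG2 : DifferentiableAt ℝ (fderiv ℝ G) z :=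
    (hG.fderiv_right (m := 1) (by norm_num)).differentiableAt (by norm_num)
  have key : ∀ v w, fderiv ℝ A z v w = fderiv ℝ A' (G z) (fderiv ℝ G z v) (fderiv ℝ G z w) +
      A' (G z) (fderiv ℝ (fderiv ℝ G) z v w) := by
    intro v w
    rw [hA.fderiv_eq]
    have h1 : HasFDerivAt (fun y => A' (G y)) ((fderiv ℝ A' (G z)).comp (fderiv ℝ G z)) z :=
      hA'.hasFDerivAt.comp z hG1.hasFDerivAt
    have h2 := h1.clm_comp hG2.hasFDerivAt
    have h3 := congrArg (fun L => L v w) h2.fderiv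
    rw [h3]
    simp [add_comm]
  rw [alt1, alt1, key, key, fderiv_symm hG v w]
  ring

theorem alt2_pull {F F' : C2 → C2 →L[ℝ] C2 →L[ℝ] ℂ} {G : C2 → C2} {z : C2}
    (hF : F =ᶠ[𝓝 z] fun y => (F' (G y)).bilinearComp (fderiv ℝ G y) (fderiv ℝ G y))
    (hFd : DifferentiableAt ℝ F z)
    (hF' : DifferentiableAt ℝ F' (G z)) (hG : ContDiffAt ℝ 2 G z)
    (hswap : ∀ v w, F' (G z) v w = -F' (G z) w v) (u v w : C2) :
    alt2 F z u v w = alt2 F' (G z) (fderiv ℝ G z u) (fderiv ℝ G z v) (fderiv ℝ G z w) := by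
  have hG1 : DifferentiableAt ℝ G z := hG.differentiableAt (by norm_num)
  have hG2 : DifferentiableAt ℝ (fderiv ℝ G) z :=
    (hG.fderiv_right (m := 1) (by norm_num)).differentiableAt (by norm_num)
  have key : ∀ u v w, fderiv ℝ F z u v w =
      fderiv ℝ F' (G z) (fderiv ℝ G z u) (fderiv ℝ G z v) (fderiv ℝ G z w) +
      F' (G z) (fderiv ℝ (fderiv ℝ G) z u v) (fderiv ℝ G z w) +
      F' (G z) (fderiv ℝ G z v) (fderiv ℝ (fderiv ℝ G) z u w) := by
    intro u v w
    have h0 : fderiv ℝ F z u v w = fderiv ℝ (fun y => F y v w) z u := by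
      rw [fderiv_clm_apply (hFd.clm_apply (differentiableAt_const v)) (differentiableAt_const w),
        fderiv_clm_apply hFd (differentiableAt_const v)]
      simp
    have h1 : (fun y => F y v w) =ᶠ[𝓝 z] fun y => F' (G y) (fderiv ℝ G y v) (fderiv ℝ G y w) := by
      filter_upwards [hF] with y hy
      rw [hy]
      rfl
    rw [h0, h1.fderiv_eq]
    have h2 : HasFDerivAt (F' ∘ G) ((fderiv ℝ F' (G z)).comp (fderiv ℝ G z)) z :=
      HasFDerivAt.comp (𝕜 := ℝ) (g := F') (f := G) (g' := fderiv ℝ F' (G z))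
        (f' := fderiv ℝ G z) z hF'.hasFDerivAt hG1.hasFDerivAt
    have h3 : ∀ x, HasFDerivAt (fun y => fderiv ℝ G y x)
        (((fderiv ℝ G z).comp (0 : C2 →L[ℝ] C2)) + (fderiv ℝ (fderiv ℝ G) z).flip x) z := fun x =>
      hG2.hasFDerivAt.clm_apply (hasFDerivAt_const x z)
    have h4 := (h2.clm_apply (h3 v)).clm_apply (h3 w)
    have h5 := congrArg (fun L => L u) h4.fderiv
    simp only [Function.comp_apply] at h5
    rw [h5]
    simp
    ring
  rw [alt2, alt2, key, key, key, fderiv_symm hG v u, fderiv_symm hG w v, fderiv_symm hG w u,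
    hswap (fderiv ℝ G z w) (fderiv ℝ (fderiv ℝ G) z u v),
    hswap (fderiv ℝ G z u) (fderiv ℝ (fderiv ℝ G) z v w),
    hswap (fderiv ℝ G z v) (fderiv ℝ (fderiv ℝ G) z u w)]
  ring

end Vale.Agent.P290.H686
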