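import Vale.Agent.P290.H686.LBPull
import Vale.Agent.P267.H332.Pair.Curv

/-! P290 / H686 (TW-LAT): the curvature form of a norm function which is equal to one where the
diffeomorphism is not known to be holomorphic. -/

set_option linter.unusedVariables false
set_option linter.unusedSectionVars false
set_option linter.unusedSimpArgs false

open scoped Manifold ContDiff ComplexConjugate Matrix
open MeasureTheory Set Filter Topology
open Vale.Agent.P267.FL Vale.Agent.P267.H332 Vale.Agent.P267.H757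

noncomputable section

namespace Vale.Agent.P290.H686

/-- complex Jacobian matrix -/
def Jm (f : C2 → C2) (z : C2) : Matrix (Fin 2) (Fin 2) ℂ :=
  Matrix.of fun p i => dz i (fun y => f y p) z

theorem Jm_mulVec {f : C2 → C2} {z : C2} (h : DifferentiableAt ℂ f z) (v : C2) (p : Fin 2) :
    fderiv ℝ f z v p = ∑ i, Jm f z p i * v i := by
  have h1 : ∀ p i, Jm f z p i = (fderiv ℂ f z (Pi.single i 1)) p := by
    intro p i
    have := dz_clm (ContinuousLinearMap.proj (R := ℂ) (φ := fun _ : Fin 2 => ℂ) p)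
      (h.restrictScalars ℝ) i
    simp only [ContinuousLinearMap.proj_apply] at this
    rw [Jm, Matrix.of_apply, this, dz_of_hol h]
  rw [h.fderiv_restrictScalars ℝ]
  have h2 : (fderiv ℂ f z).restrictScalars ℝ v = fderiv ℂ f z v := rfl
  rw [h2]
  conv_lhs => rw [c2_decomp v]
  rw [map_add, map_smul, map_smul, Fin.sum_univ_two, h1, h1]
  simp only [Pi.add_apply, Pi.smul_apply, smul_eq_mul]
  ring

variable {X : Type*} [TopologicalSpace X] [ChartedSpace C2 X] [IsManifold 𝓘(ℂ, C2) ω X]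
variable {Y : Type*} [TopologicalSpace Y] [ChartedSpace C2 Y] [IsManifold 𝓘(ℂ, C2) ω Y]

/-- pullback of the curvature of a norm function under a map which is holomorphic near `x` -/
theorem val2_pb2_cF {φ : X → Y} (hφ : Continuous φ) {x : X}
    (ha : AnalyticAt ℂ (rep φ (chartAt C2 x) (chartAt C2 (φ x))) (chartAt C2 x x))
    {N : Y → ℝ} {U : Set Y} {g : Y → ℂ} {ψ : Y → ℝ} (h : LocRep C2 N U g ψ) (hU : φ x ∈ U)
    {M : X → ℝ} {U' : Set X} {g' : X → ℂ} (h' : LocRep C2 M U' g' (fun x => ψ (φ x)))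
    (hU' : x ∈ U') : val2 (pb2 φ (cF N)) x = val2 (cF M) x := by
  ext v w
  set e := chartAt C2 x with hed
  set e' := chartAt C2 (φ x) with he'd
  have he : e ∈ atlas C2 X := chart_mem_atlas C2 x
  have he' : e' ∈ atlas C2 Y := chart_mem_atlas C2 (φ x)
  have hx : x ∈ e.source := mem_chart_source C2 x
  have hx' : φ x ∈ e'.source := mem_chart_source C2 (φ x)
  have hfx : rep φ e e' (e x) = e' (φ x) := rep_apply φ e' hx
  have hD : ∀ v p, Df φ x v p = ∑ i, Jm (rep φ e e') (e x) p i * v i := fun v p =>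
    Jm_mulVec ha.differentiableAt v p
  have hu : ContDiffAt ℝ 2 (fun y => (ψ (e'.symm y) : ℂ)) (rep φ e e' (e x)) := by
    rw [hfx]
    exact (lr_cda h he' (e'.map_source hx') (by rwa [e'.left_inv hx'])).of_le
      (WithTop.coe_le_coe.2 le_top)
  have hev : (fun y => (ψ (φ (e.symm y)) : ℂ)) =ᶠ[𝓝 (e x)]
      fun y => (fun z => (ψ (e'.symm z) : ℂ)) (rep φ e e' y) := by
    filter_upwards [rep_eventually hφ e e' hx hx'] with z hz
    simp only [rep, e'.left_inv hz.2]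
  have hc : curvN M x = ddz (fun y => (ψ (φ (e.symm y)) : ℂ)) (e x) := curvN_eq h' hU'
  have hc' : curvN N (φ x) = ddz (fun y => (ψ (e'.symm y) : ℂ)) (e' (φ x)) := curvN_eq h hU
  have hcc : ∀ i j, curvN M x i j = ∑ p, ∑ q, (Jm (rep φ e e') (e x) p i *
      conj (Jm (rep φ e e') (e x) q j)) * curvN N (φ x) p q := by
    intro i j
    rw [hc, ddz_congr hev, ddz_comp hu ha i j, hfx, hc']
    rfl
  rw [val2_pb2_apply, val2, val2, ev2_apply, ev2_apply]
  simp only [cF, hcc, hD, Fin.sum_univ_two, map_add, map_mul]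
  ring

/-- a constant norm function is flat -/
theorem curvN_one_at {N : X → ℝ} (hN : IsNormFn C2 N) {x : X} (h : N =ᶠ[𝓝 x] fun _ => 1) :
    curvN N x = 0 := by
  rw [curvN_congr hN h]
  have hr : LocRep C2 (fun _ : X => (1 : ℝ)) univ (fun _ => 1) (fun _ => 0) := by
    refine ⟨isOpen_univ, mdifferentiableOn_const, fun V _ _ hne =>
      ⟨hne.some, hne.some_mem, one_ne_zero⟩, contMDiffOn_const, fun x _ => by simp⟩
  rw [curvN_eq hr (mem_univ x)]
  ext i j
  have h2 : (dzb j fun _ : C2 => (((0 : ℝ) : ℝ) : ℂ)) = fun _ => 0 := by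
    funext z
    simp [dzb]
  rw [ddz_apply, h2]
  simp [dz]

theorem val2_cF_of_one {N : X → ℝ} (hN : IsNormFn C2 N) {x : X} (h : N =ᶠ[𝓝 x] fun _ => 1) :
    val2 (cF N) x = 0 := by
  ext v w
  rw [val2, ev2_apply]
  simp [cF, curvN_one_at hN h]

/-- analyticity of a map in charts from `MDifferentiableAt` on a neighbourhood -/
theorem rep_analyticAt {φ : X → Y} (hφ : Continuous φ) {O : Set X} (hO : IsOpen O)
    (hh : ∀ y ∈ O, MDifferentiableAt 𝓘(ℂ, C2) 𝓘(ℂ, C2) φ y) {x : X} (hxO : x ∈ O) {e : Ch X}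
    (he : e ∈ atlas C2 X) {e' : Ch Y} (he' : e' ∈ atlas C2 Y) (hx : x ∈ e.source)
    (hx' : φ x ∈ e'.source) : AnalyticAt ℂ (rep φ e e') (e x) := by
  have n1 : IsManifold 𝓘(ℂ, C2) 1 X := IsManifold.of_le (n := ω) le_top
  have n2 : IsManifold 𝓘(ℂ, C2) 1 Y := IsManifold.of_le (n := ω) le_top
  have hS : IsOpen (e.target ∩ e.symm ⁻¹' (O ∩ φ ⁻¹' e'.source)) :=
    e.symm.isOpen_inter_preimage (hO.inter (e'.open_source.preimage hφ))
  refine Vale.Agent.P268.analyticAt_of_differentiableOn hS (fun z hz => ?_)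
    ⟨e.map_source hx, by rw [mem_preimage, e.left_inv hx]; exact ⟨hxO, hx'⟩⟩
  refine DifferentiableAt.differentiableWithinAt ?_
  have h1 : MDifferentiableAt 𝓘(ℂ, C2) 𝓘(ℂ, C2) e.symm z :=
    mdifferentiableAt_atlas_symm he hz.1
  have h2 : MDifferentiableAt 𝓘(ℂ, C2) 𝓘(ℂ, C2) φ (e.symm z) := hh _ hz.2.1
  have h3 : MDifferentiableAt 𝓘(ℂ, C2) 𝓘(ℂ, C2) e' (φ (e.symm z)) :=
    mdifferentiableAt_atlas he' hz.2.2
  have h4 : MDifferentiableAt 𝓘(ℂ, C2) 𝓘(ℂ, C2) (fun y => φ (e.symm y)) z :=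
    MDifferentiableAt.comp (g := φ) z h2 h1
  have h5 : MDifferentiableAt 𝓘(ℂ, C2) 𝓘(ℂ, C2) (fun y => e' (φ (e.symm y))) z :=
    MDifferentiableAt.comp (g := e') z h3 h4
  exact h5.differentiableAt

/-- **The curvature of a norm function is transported.** -/
theorem pb2_cF (φ : X ≃ₜ Y) (hs : ContMDiff 𝓘(ℝ, C2) 𝓘(ℝ, C2) ∞ φ) {K : Set X}
    (hK : IsClosed K) (hh : ∀ x, x ∉ K → MDifferentiableAt 𝓘(ℂ, C2) 𝓘(ℂ, C2) φ x) {N : X → ℝ}
    (hN : IsNormFn C2 N) (hN' : IsNormFn C2 fun y => N (φ.symm y)) {V : Set X} (hV : IsOpen V)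
    (hKV : K ⊆ V) (h1 : ∀ x ∈ V, N x = 1) : pb2 φ (cF fun y => N (φ.symm y)) = cF N := by
  refine val2_inj fun x => ?_
  by_cases hx : x ∈ V
  · have e1 : N =ᶠ[𝓝 x] fun _ => 1 := by
      filter_upwards [hV.mem_nhds hx] with y hy
      exact h1 y hy
    have e2 : (fun y => N (φ.symm y)) =ᶠ[𝓝 (φ x)] fun _ => 1 := by
      have hV' : IsOpen (φ.symm ⁻¹' V) := hV.preimage φ.symm.continuous
      filter_upwards [hV'.mem_nhds (show φ x ∈ φ.symm ⁻¹' V by
        rw [mem_preimage, φ.symm_apply_apply]; exact hx)] with y hy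
      exact h1 _ hy
    rw [val2_cF_of_one hN e1]
    ext v w
    rw [val2_pb2_apply, val2_cF_of_one hN' e2]
    rfl
  · have hxK : x ∉ K := fun h => hx (hKV h)
    obtain ⟨U, g, ψ, hU, hr⟩ := hN' (φ x)
    have hO : IsOpen Kᶜ := hK.isOpen_compl
    have hr' := hr.comp (E' := C2) (σ := φ) (V := Kᶜ) hO
      (fun y hy => (hh y hy).mdifferentiableWithinAt) hs.contMDiffOn
      (fun B hB _ => φ.isOpenMap B hB)
    simp only [φ.symm_apply_apply] at hr'
    exact val2_pb2_cF φ.continuous (rep_analyticAt φ.continuous hO (fun y hy => hh y hy) hxK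
      (chart_mem_atlas C2 x) (chart_mem_atlas C2 (φ x)) (mem_chart_source C2 x)
      (mem_chart_source C2 (φ x))) hr hU hr' ⟨hxK, hU⟩

end Vale.Agent.P290.H686
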