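import Vale.Agent.P267.H399.Calc

/-! P290 / H686 (package DIFFEO): one-forms and two-forms given by types, as real multilinear maps;
exterior derivative as an antisymmetrised derivative; pullback by a smooth map. -/

set_option linter.unusedVariables false
set_option linter.unusedSectionVars false
set_option linter.unusedSimpArgs false

open scoped Manifold ContDiff ComplexConjugate Matrix
open MeasureTheory Set Filter Topology
open Vale.Agent.P267.FL

noncomputable section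

namespace Vale.Agent.P290.H686

/-- the coordinate covector `dz_i` -/
def dZ (i : Fin 2) : C2 →L[ℝ] ℂ := ContinuousLinearMap.proj (R := ℝ) (φ := fun _ : Fin 2 => ℂ) i

/-- the coordinate covector `dz̄_i` -/
def dZb (i : Fin 2) : C2 →L[ℝ] ℂ :=
  (Complex.conjCLE : ℂ →L[ℝ] ℂ).comp (ContinuousLinearMap.proj (R := ℝ) (φ := fun _ : Fin 2 => ℂ) i)

@[simp] theorem dZ_apply (i : Fin 2) (v : C2) : dZ i v = v i := rfl

@[simp] theorem dZb_apply (i : Fin 2) (v : C2) : dZb i v = conj (v i) := rfl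

/-- wedge of two covectors -/
def w2 (α β : C2 →L[ℝ] ℂ) : C2 →L[ℝ] C2 →L[ℝ] ℂ := α.smulRight β - β.smulRight α

@[simp] theorem w2_apply (α β : C2 →L[ℝ] ℂ) (v w : C2) : w2 α β v w = α v * β w - β v * α w := by
  simp [w2]

/-- the covector `∑ c_i dz_i + ∑ a_i dz̄_i` -/
def ev1 (c a : Fin 2 → ℂ) : C2 →L[ℝ] ℂ := ∑ i, (c i • dZ i + a i • dZb i)

theorem ev1_apply (c a : Fin 2 → ℂ) (v : C2) :
    ev1 c a v = ∑ i, (c i * v i + a i * conj (v i)) := by
  simp [ev1]

/-- the 2-covector `f dz_0∧dz_1 + ∑ g_ij dz_i∧dz̄_j + h dz̄_0∧dz̄_1` -/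
def ev2 (f : ℂ) (g : Matrix (Fin 2) (Fin 2) ℂ) (h : ℂ) : C2 →L[ℝ] C2 →L[ℝ] ℂ :=
  f • w2 (dZ 0) (dZ 1) + (∑ i, ∑ j, g i j • w2 (dZ i) (dZb j)) + h • w2 (dZb 0) (dZb 1)

theorem ev2_apply (f : ℂ) (g : Matrix (Fin 2) (Fin 2) ℂ) (h : ℂ) (v w : C2) :
    ev2 f g h v w = f * (v 0 * w 1 - v 1 * w 0) +
      (∑ i, ∑ j, g i j * (v i * conj (w j) - conj (v j) * w i)) +
      h * (conj (v 0) * conj (w 1) - conj (v 1) * conj (w 0)) := by
  simp [ev2, Fin.sum_univ_two]

theorem ev2_alt (f : ℂ) (g : Matrix (Fin 2) (Fin 2) ℂ) (h : ℂ) (v : C2) : ev2 f g h v v = 0 := by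
  rw [ev2_apply]
  simp only [Fin.sum_univ_two]
  ring

theorem ev2_swap (f : ℂ) (g : Matrix (Fin 2) (Fin 2) ℂ) (h : ℂ) (v w : C2) :
    ev2 f g h v w = -ev2 f g h w v := by
  rw [ev2_apply, ev2_apply]
  simp only [Fin.sum_univ_two]
  ring

/-! ### components -/

/-- `(1,0)`-component of a function of a vector -/
def k10 (i : Fin 2) (φ : C2 → ℂ) : ℂ :=
  (1 / 2 : ℂ) * (φ (Pi.single i 1) - Complex.I * φ (Pi.single i Complex.I))

/-- `(0,1)`-component of a function of a vector -/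
def k01 (i : Fin 2) (φ : C2 → ℂ) : ℂ :=
  (1 / 2 : ℂ) * (φ (Pi.single i 1) + Complex.I * φ (Pi.single i Complex.I))

theorem clm_eq (L : C2 →L[ℝ] ℂ) (v : C2) : L v = ∑ i, (k10 i L * v i + k01 i L * conj (v i)) := by
  rw [rlin_eq L v]
  refine Finset.sum_congr rfl fun i _ => ?_
  simp only [smul_eq_mul, k10, k01]
  ring

theorem ev1_comps (L : C2 →L[ℝ] ℂ) : ev1 (fun i => k10 i L) (fun i => k01 i L) = L := by
  ext v
  rw [ev1_apply, clm_eq L v]

theorem k10_ev1 (c a : Fin 2 → ℂ) (i : Fin 2) : k10 i (ev1 c a) = c i := by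
  have hI : Complex.I * Complex.I = -1 := Complex.I_mul_I
  fin_cases i
  · simp only [k10, ev1_apply, Fin.sum_univ_two]
    simp
    linear_combination (-(c 0) / 2 + a 0 / 2) * hI
  · simp only [k10, ev1_apply, Fin.sum_univ_two]
    simp
    linear_combination (-(c 1) / 2 + a 1 / 2) * hI

theorem k01_ev1 (c a : Fin 2 → ℂ) (i : Fin 2) : k01 i (ev1 c a) = a i := by
  have hI : Complex.I * Complex.I = -1 := Complex.I_mul_I
  fin_cases i
  · simp only [k01, ev1_apply, Fin.sum_univ_two]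
    simp
    linear_combination ((c 0) / 2 - a 0 / 2) * hI
  · simp only [k01, ev1_apply, Fin.sum_univ_two]
    simp
    linear_combination ((c 1) / 2 - a 1 / 2) * hI

theorem ev1_inj {c a c' a' : Fin 2 → ℂ} (h : ev1 c a = ev1 c' a') : c = c' ∧ a = a' := by
  constructor
  · funext i
    rw [← k10_ev1 c a i, h, k10_ev1]
  · funext i
    rw [← k01_ev1 c a i, h, k01_ev1]

/-- components of a bilinear map -/
def c20 (T : C2 → C2 → ℂ) : ℂ := k10 0 fun v => k10 1 (T v)

/-- components of a bilinear map -/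
def c11 (T : C2 → C2 → ℂ) : Matrix (Fin 2) (Fin 2) ℂ := Matrix.of fun i j => k10 i fun v => k01 j (T v)

/-- components of a bilinear map -/
def c02 (T : C2 → C2 → ℂ) : ℂ := k01 0 fun v => k01 1 (T v)

/-- evaluation of a real bilinear map on `∂_i`, `∂̄_i` in the first variable -/
theorem bil_eq (T : C2 →L[ℝ] C2 →L[ℝ] ℂ) (v w : C2) :
    T v w = ∑ i, ∑ j, (k10 i (fun x => k10 j (T x)) * (v i * w j) +
      k10 i (fun x => k01 j (T x)) * (v i * conj (w j)) +
      k01 i (fun x => k10 j (T x)) * (conj (v i) * w j) +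
      k01 i (fun x => k01 j (T x)) * (conj (v i) * conj (w j))) := by
  have h1 := clm_eq (T v) w
  have h2 : ∀ j, ∃ L : C2 →L[ℝ] ℂ, ∀ x, L x = k10 j (T x) := by
    intro j
    refine ⟨(1 / 2 : ℂ) • (T.flip (Pi.single j 1) - Complex.I • T.flip (Pi.single j Complex.I)), ?_⟩
    intro x
    simp [k10]
  have h3 : ∀ j, ∃ L : C2 →L[ℝ] ℂ, ∀ x, L x = k01 j (T x) := by
    intro j
    refine ⟨(1 / 2 : ℂ) • (T.flip (Pi.single j 1) + Complex.I • T.flip (Pi.single j Complex.I)), ?_⟩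
    intro x
    simp [k01]
    ring
  choose L hL using h2
  choose M hM using h3
  have h4 : ∀ j, k10 j (T v) = ∑ i, (k10 i (fun x => k10 j (T x)) * v i +
      k01 i (fun x => k10 j (T x)) * conj (v i)) := by
    intro j
    have e : (fun x => k10 j (T x)) = (L j : C2 → ℂ) := by
      funext x
      exact (hL j x).symm
    rw [← hL j v, clm_eq (L j) v, e]
  have h5 : ∀ j, k01 j (T v) = ∑ i, (k10 i (fun x => k01 j (T x)) * v i +
      k01 i (fun x => k01 j (T x)) * conj (v i)) := by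
    intro j
    have e : (fun x => k01 j (T x)) = (M j : C2 → ℂ) := by
      funext x
      exact (hM j x).symm
    rw [← hM j v, clm_eq (M j) v, e]
  rw [h1]
  simp only [h4, h5, Fin.sum_univ_two]
  ring

theorem k_swap (T : C2 →L[ℝ] C2 →L[ℝ] ℂ) (hT : ∀ v w, T v w = -T w v) (i j : Fin 2) :
    k10 i (fun x => k10 j (T x)) = -k10 j (fun x => k10 i (T x)) ∧
    k10 i (fun x => k01 j (T x)) = -k01 j (fun x => k10 i (T x)) ∧
    k01 i (fun x => k01 j (T x)) = -k01 j (fun x => k01 i (T x)) := by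
  refine ⟨?_, ?_, ?_⟩
  · simp only [k10]
    rw [hT (Pi.single i 1) (Pi.single j 1), hT (Pi.single i 1) (Pi.single j Complex.I),
      hT (Pi.single i Complex.I) (Pi.single j 1), hT (Pi.single i Complex.I) (Pi.single j Complex.I)]
    ring
  · simp only [k10, k01]
    rw [hT (Pi.single i 1) (Pi.single j 1), hT (Pi.single i 1) (Pi.single j Complex.I),
      hT (Pi.single i Complex.I) (Pi.single j 1), hT (Pi.single i Complex.I) (Pi.single j Complex.I)]
    ring
  · simp only [k01]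
    rw [hT (Pi.single i 1) (Pi.single j 1), hT (Pi.single i 1) (Pi.single j Complex.I),
      hT (Pi.single i Complex.I) (Pi.single j 1), hT (Pi.single i Complex.I) (Pi.single j Complex.I)]
    ring

theorem ev2_comps (T : C2 →L[ℝ] C2 →L[ℝ] ℂ) (hT : ∀ v w, T v w = -T w v) :
    ev2 (c20 fun v => T v) (c11 fun v => T v) (c02 fun v => T v) = T := by
  ext v w
  rw [ev2_apply, bil_eq T v w]
  have h := fun i j => k_swap T hT i j
  simp only [Fin.sum_univ_two, c20, c11, c02, Matrix.of_apply]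
  have e1 : k10 0 (fun x => k10 0 (T x)) = 0 := by
    have := (h 0 0).1
    linear_combination (1 / 2 : ℂ) * this
  have e2 : k10 1 (fun x => k10 1 (T x)) = 0 := by
    have := (h 1 1).1
    linear_combination (1 / 2 : ℂ) * this
  have e3 : k01 0 (fun x => k01 0 (T x)) = 0 := by
    have := (h 0 0).2.2
    linear_combination (1 / 2 : ℂ) * this
  have e4 : k01 1 (fun x => k01 1 (T x)) = 0 := by
    have := (h 1 1).2.2
    linear_combination (1 / 2 : ℂ) * this
  have e5 := (h 1 0).1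
  have e6 := (h 1 0).2.2
  have g00 := (h 0 0).2.1
  have g01 := (h 0 1).2.1
  have g10 := (h 1 0).2.1
  have g11 := (h 1 1).2.1
  have g00' : k01 0 (fun x => k10 0 (T x)) = -k10 0 (fun x => k01 0 (T x)) := by rw [g00]; ring
  have g01' : k01 1 (fun x => k10 0 (T x)) = -k10 0 (fun x => k01 1 (T x)) := by rw [g01]; ring
  have g10' : k01 0 (fun x => k10 1 (T x)) = -k10 1 (fun x => k01 0 (T x)) := by rw [g10]; ring
  have g11' : k01 1 (fun x => k10 1 (T x)) = -k10 1 (fun x => k01 1 (T x)) := by rw [g11]; ring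
  rw [e1, e2, e3, e4, e5, e6, g00', g01', g10', g11']
  ring

theorem c_ev2 (f : ℂ) (g : Matrix (Fin 2) (Fin 2) ℂ) (h : ℂ) :
    c20 (fun v => ev2 f g h v) = f ∧ c11 (fun v => ev2 f g h v) = g ∧
      c02 (fun v => ev2 f g h v) = h := by
  have hI : Complex.I * Complex.I = -1 := Complex.I_mul_I
  have hI2 : Complex.I ^ 2 = -1 := by rw [sq, hI]
  have hI3 : Complex.I ^ 3 = -Complex.I := by rw [pow_succ, hI2]; ring
  have hI4 : Complex.I ^ 4 = 1 := by rw [pow_succ, hI3]; linear_combination -hI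
  refine ⟨?_, ?_, ?_⟩
  · simp only [c20, k10, ev2_apply, Fin.sum_univ_two]
    simp
    ring_nf
    simp only [hI2, hI3, hI4]
    ring
  · ext i j
    fin_cases i <;> fin_cases j <;>
    · simp only [c11, k10, k01, ev2_apply, Fin.sum_univ_two, Matrix.of_apply]
      simp
      ring_nf
      simp only [hI2, hI3, hI4]
      ring
  · simp only [c02, k01, ev2_apply, Fin.sum_univ_two]
    simp
    ring_nf
    simp only [hI2, hI3, hI4]
    ring

theorem ev2_inj {f f' h h' : ℂ} {g g' : Matrix (Fin 2) (Fin 2) ℂ}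
    (H : ev2 f g h = ev2 f' g' h') : f = f' ∧ g = g' ∧ h = h' := by
  obtain ⟨h1, h2, h3⟩ := c_ev2 f g h
  obtain ⟨h1', h2', h3'⟩ := c_ev2 f' g' h'
  rw [H] at h1 h2 h3
  exact ⟨h1.symm.trans h1', h2.symm.trans h2', h3.symm.trans h3'⟩

end Vale.Agent.P290.H686
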