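import Vale.Agent.P290.H686.Int

/-! P290 / H686 (package DIFFEO): pullback of line bundles; the curvature; intersection numbers. -/

set_option linter.unusedVariables false
set_option linter.unusedSectionVars false
set_option linter.unusedSimpArgs false

open scoped Manifold ContDiff ComplexConjugate Matrix
open MeasureTheory Set Filter Topology
open Vale.Agent.P267.FL

noncomputable section

namespace Vale.Agent.P290.H686

variable {ι : Type} [Fintype ι] [DecidableEq ι] {ι' : Type} [Fintype ι'] [DecidableEq ι']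

section curv

variable {X : Type*} [TopologicalSpace X] [ChartedSpace C2 X]

theorem LB_ext {L L' : LB X ι} (h : ∀ x, L.P x = L'.P x) : L = L' := by
  obtain ⟨P, _, _, _, _⟩ := L
  obtain ⟨P', _, _, _, _⟩ := L'
  have : P = P' := funext h
  subst this
  rfl

/-- derivative of the projector of a line bundle -/
def dM (L : LB X ι) (x : X) (v : C2) : Matrix ι ι ℂ :=
  Matrix.of fun i j => val1 (dF0 fun y => L.P y i j) x v

/-- derivative of the projector, `∂`-components -/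
def mA (L : LB X ι) (x : X) (k : Fin 2) : Matrix ι ι ℂ :=
  Matrix.of fun i j => del0 (fun y => L.P y i j) x k

/-- derivative of the projector, `∂̄`-components -/
def mB (L : LB X ι) (x : X) (k : Fin 2) : Matrix ι ι ℂ :=
  Matrix.of fun i j => dbar0 0 (fun y => L.P y i j) x k

theorem dM_eq (L : LB X ι) (x : X) (v : C2) :
    dM L x v = v 0 • mA L x 0 + v 1 • mA L x 1 + conj (v 0) • mB L x 0 + conj (v 1) • mB L x 1 := by
  ext i j
  simp only [dM, mA, mB, Matrix.of_apply, Matrix.add_apply, Matrix.smul_apply, smul_eq_mul, val1,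
    ev1_apply, Fin.sum_univ_two, dF0]
  ring

/-- the curvature as a bilinear form: `tr (P [dP(v), dP(w)])` -/
theorem val2_curv (L : LB X ι) (x : X) (v w : C2) :
    val2 L.curv x v w = (L.P x * (dM L x v * dM L x w - dM L x w * dM L x v)).trace := by
  have h20 : L.curv.f20 x = (L.P x * (mA L x 0 * mA L x 1 - mA L x 1 * mA L x 0)).trace := rfl
  have h02 : L.curv.f02 x = (L.P x * (mB L x 0 * mB L x 1 - mB L x 1 * mB L x 0)).trace := rfl
  have h11 : ∀ k l, L.curv.f11 x k l =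
      (L.P x * (mA L x k * mB L x l - mB L x l * mA L x k)).trace := fun k l => rfl
  rw [val2, ev2_apply, dM_eq, dM_eq, h20, h02]
  simp only [Fin.sum_univ_two, h11]
  generalize mA L x 0 = A0
  generalize mA L x 1 = A1
  generalize mB L x 0 = B0
  generalize mB L x 1 = B1
  generalize L.P x = P
  simp only [mul_add, add_mul, mul_sub, smul_mul_assoc, mul_smul_comm, Matrix.trace_add,
    Matrix.trace_sub, Matrix.trace_smul, smul_eq_mul]
  ring

end curv

variable {X : Type*} [TopologicalSpace X] [ChartedSpace C2 X] [IsManifold 𝓘(ℂ, C2) ω X]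
variable {Y : Type*} [TopologicalSpace Y] [ChartedSpace C2 Y] [IsManifold 𝓘(ℂ, C2) ω Y]
variable {Z : Type*} [TopologicalSpace Z] [ChartedSpace C2 Z] [IsManifold 𝓘(ℂ, C2) ω Z]

/-- pullback of a smooth line bundle -/
def pbL (φ : X → Y) (hφ : IsSm φ) (L : LB Y ι) : LB X ι where
  P x := L.P (φ x)
  smooth i j := reg0_comp hφ (L.smooth i j)
  herm x := L.herm (φ x)
  idem x := L.idem (φ x)
  tr x := L.tr (φ x)

@[simp] theorem pbL_P (φ : X → Y) (hφ : IsSm φ) (L : LB Y ι) (x : X) :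
    (pbL φ hφ L).P x = L.P (φ x) := rfl

theorem dM_pbL {φ : X → Y} (hφ : IsSm φ) (L : LB Y ι) (x : X) (v : C2) :
    dM (pbL φ hφ L) x v = dM L (φ x) (Df φ x v) := by
  ext i j
  simp only [dM, Matrix.of_apply, pbL_P]
  rw [← pb1_dF0 hφ (L.smooth i j), val1_pb1]
  rfl

/-- the curvature of the pullback -/
theorem curv_pbL {φ : X → Y} (hφ : IsSm φ) (L : LB Y ι) :
    (pbL φ hφ L).curv = pb2 φ L.curv := by
  refine val2_inj fun x => ?_
  ext v w
  rw [val2_pb2_apply, val2_curv, val2_curv, dM_pbL, dM_pbL, pbL_P]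

theorem pbL_tensor {φ : X → Y} (hφ : IsSm φ) (L : LB Y ι) (L' : LB Y ι') :
    pbL φ hφ (L.tensor L') = (pbL φ hφ L).tensor (pbL φ hφ L') := rfl

theorem pbL_dual {φ : X → Y} (hφ : IsSm φ) (L : LB Y ι) :
    pbL φ hφ L.dual = (pbL φ hφ L).dual := rfl

theorem pbL_triv {φ : X → Y} (hφ : IsSm φ) (i₀ : ι) :
    pbL φ hφ (LB.triv i₀) = LB.triv i₀ := rfl

theorem pbL_id (L : LB X ι) : pbL (fun x : X => x) isSm_id L = L := rfl

theorem pbL_comp {ψ : Y → Z} {φ : X → Y} (hψ : IsSm ψ) (hφ : IsSm φ) (L : LB Z ι) :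
    pbL (fun x => ψ (φ x)) (hψ.comp hφ) L = pbL φ hφ (pbL ψ hψ L) := rfl

theorem isSmoothTrivial_pbL {φ : X → Y} (hφ : IsSm φ) {L : LB Y ι} (h : L.IsSmoothTrivial) :
    (pbL φ hφ L).IsSmoothTrivial := by
  obtain ⟨s, hs, hs', h0⟩ := h
  exact ⟨fun x => s (φ x), reg0_comp hφ hs, fun x => hs' (φ x), fun x => h0 (φ x)⟩

theorem sec_pbL {φ : X → Y} (hφ : IsSm φ) {L : LB Y ι} {s : Y → EuclideanSpace ℂ ι} (h : L.Sec s) :
    (pbL φ hφ L).Sec fun x => s (φ x) := fun x => h (φ x)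

/-! ### the homeomorphism case -/

section homeo

variable (φ : X ≃ₜ Y)

theorem pb2_symm_pb2 (hφ : IsDiffeo φ) (F : TwoF Y) : pb2 φ.symm (pb2 φ F) = F := by
  rw [← pb2_comp hφ.smooth hφ.smooth']
  have : (fun x => φ (φ.symm x)) = fun x => x := funext fun x => φ.apply_symm_apply x
  rw [this, pb2_id]

theorem pb2_pb2_symm (hφ : IsDiffeo φ) (F : TwoF X) : pb2 φ (pb2 φ.symm F) = F := by
  rw [← pb2_comp hφ.smooth' hφ.smooth]
  have : (fun x => φ.symm (φ x)) = fun x => x := funext fun x => φ.symm_apply_apply x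
  rw [this, pb2_id]

theorem pb1_symm_pb1 (hφ : IsDiffeo φ) (A : OneF Y) : pb1 φ.symm (pb1 φ A) = A := by
  rw [← pb1_comp hφ.smooth hφ.smooth']
  have : (fun x => φ (φ.symm x)) = fun x => x := funext fun x => φ.apply_symm_apply x
  rw [this, pb1_id]

theorem pb1_pb1_symm (hφ : IsDiffeo φ) (A : OneF X) : pb1 φ (pb1 φ.symm A) = A := by
  rw [← pb1_comp hφ.smooth' hφ.smooth]
  have : (fun x => φ.symm (φ x)) = fun x => x := funext fun x => φ.symm_apply_apply x
  rw [this, pb1_id]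

theorem pbT_symm_pbT (hφ : IsDiffeo φ) (b : Y → ℂ) : pbT φ.symm (pbT φ b) = b := by
  rw [← pbT_comp hφ.smooth hφ.smooth']
  have : (fun x => φ (φ.symm x)) = fun x => x := funext fun x => φ.apply_symm_apply x
  rw [this, pbT_id]

theorem pbT_pbT_symm (hφ : IsDiffeo φ) (b : X → ℂ) : pbT φ (pbT φ.symm b) = b := by
  rw [← pbT_comp hφ.smooth' hφ.smooth]
  have : (fun x => φ.symm (φ x)) = fun x => x := funext fun x => φ.symm_apply_apply x
  rw [this, pbT_id]

theorem pb2_smooth_iff (hφ : IsDiffeo φ) {F : TwoF Y} : (pb2 φ F).Smooth ↔ F.Smooth := by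
  refine ⟨fun h => ?_, pb2_smooth hφ.smooth⟩
  have := pb2_smooth hφ.smooth' h
  rwa [pb2_symm_pb2 φ hφ] at this

theorem pb1_smooth_iff (hφ : IsDiffeo φ) {A : OneF Y} : (pb1 φ A).Smooth ↔ A.Smooth := by
  refine ⟨fun h => ?_, pb1_smooth hφ.smooth⟩
  have := pb1_smooth hφ.smooth' h
  rwa [pb1_symm_pb1 φ hφ] at this

theorem pb2_closed_iff (hφ : IsDiffeo φ) {F : TwoF Y} (hF : F.Smooth) :
    (pb2 φ F).Closed ↔ F.Closed := by
  refine ⟨fun h => ?_, pb2_closed hφ.smooth hF⟩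
  have := pb2_closed hφ.smooth' (pb2_smooth hφ.smooth hF) h
  rwa [pb2_symm_pb2 φ hφ] at this

/-- exactness is invariant -/
theorem pb2_exact {F : TwoF Y} (hφ : IsDiffeo φ) (h : ∃ A : OneF Y, A.Smooth ∧ A.d = F) :
    ∃ A : OneF X, A.Smooth ∧ A.d = pb2 φ F := by
  obtain ⟨A, hA, rfl⟩ := h
  exact ⟨pb1 φ A, pb1_smooth hφ.smooth hA, (pb1_d hφ.smooth hA).symm⟩

theorem pb2_exact_iff {F : TwoF Y} (hφ : IsDiffeo φ) :
    (∃ A : OneF X, A.Smooth ∧ A.d = pb2 φ F) ↔ ∃ A : OneF Y, A.Smooth ∧ A.d = F := by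
  refine ⟨fun h => ?_, pb2_exact φ hφ⟩
  have := pb2_exact φ.symm hφ.symm h
  rwa [pb2_symm_pb2 φ hφ] at this

end homeo

/-! ### the wedge product of smooth forms -/

theorem loc2_wedge {e : Ch X} (he : e ∈ atlas C2 X) {x : X} (hx : x ∈ e.source) (F G : TwoF X) :
    4 * loc2 1 e (F.wedge G) (e x) =
      wd (E2 e F (e x)) (E2 e G (e x)) (Pi.single 0 1) (Pi.single 0 Complex.I) (Pi.single 1 1)
        (Pi.single 1 Complex.I) := by
  have h1 := wd_comp (val2 F x) (val2 G x) (val2_swap F _) (val2_swap G _) (Dch e x)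
    (Pi.single 0 1) (Pi.single 0 Complex.I) (Pi.single 1 1) (Pi.single 1 Complex.I)
  have h2 : ∀ a b c d, wd (E2 e F (e x)) (E2 e G (e x)) a b c d =
      wd (val2 F x) (val2 G x) (Dch e x a) (Dch e x b) (Dch e x c) (Dch e x d) := by
    intro a b c d
    simp only [wd, E2_apply he _ hx]
  rw [← h2] at h1
  rw [h1, loc2_eq he hx]
  simp only [val2]
  rw [wd_ev2, TwoF.wedge]
  ring

theorem reg2_wedge {F G : TwoF X} (hF : F.Smooth) (hG : G.Smooth) : Reg2 ∞ 1 (F.wedge G) := by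
  intro e he z hz
  refine ContDiffAt.contDiffWithinAt ?_
  have h1 := smooth2_iff.1 hF e he z hz
  have h2 := smooth2_iff.1 hG e he z hz
  have h3 : ContDiffAt ℝ ∞ (fun z => (1 / 4 : ℂ) * wd (E2 e F z) (E2 e G z) (Pi.single 0 1)
      (Pi.single 0 Complex.I) (Pi.single 1 1) (Pi.single 1 Complex.I)) z := by
    have k : ∀ (T : C2 → C2 →L[ℝ] C2 →L[ℝ] ℂ), ContDiffAt ℝ ∞ T z → ∀ a b : C2,
        ContDiffAt ℝ ∞ (fun z => T z a b) z := fun T hT a b =>
      (hT.clm_apply contDiffAt_const).clm_apply contDiffAt_const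
    simp only [wd]
    refine contDiffAt_const.mul ?_
    exact ((((((k _ h1 _ _).mul (k _ h2 _ _)).add ((k _ h1 _ _).mul (k _ h2 _ _))).sub
      ((k _ h1 _ _).mul (k _ h2 _ _))).sub ((k _ h1 _ _).mul (k _ h2 _ _))).add
      ((k _ h1 _ _).mul (k _ h2 _ _))).add ((k _ h1 _ _).mul (k _ h2 _ _))
  refine h3.congr_of_eventuallyEq ?_
  filter_upwards [e.open_target.mem_nhds hz] with w hw
  have := loc2_wedge he (e.map_target hw) F G
  rw [e.right_inv hw] at this
  rw [← this]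
  ring

theorem Reg2.of_le' {b : X → ℂ} (h : Reg2 ∞ 1 b) : Reg2 0 1 b := fun e he =>
  (h e he).of_le (by simp)

section compact

variable [T2Space X] [CompactSpace X] [T2Space Y] [CompactSpace Y]

/-- the pairing of two-forms is invariant -/
theorem intX_wedge_pb2' (φ : X ≃ₜ Y) (hφ : IsDiffeo φ) {F G : TwoF Y} (hF : F.Smooth)
    (hG : G.Smooth) : intX ((pb2 φ F).wedge (pb2 φ G)) = intX (F.wedge G) :=
  intX_wedge_pb2 φ hφ (Reg2.of_le' (reg2_wedge hF hG))

end compact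

end Vale.Agent.P290.H686
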