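import Vale.Agent.P290.H686.LBPull
import Vale.Agent.P267.H857.Alg

/-! P290 / H686 (package DIFFEO): pullback of forms is linear and commutes with conjugation. -/

set_option linter.unusedVariables false
set_option linter.unusedSectionVars false
set_option linter.unusedSimpArgs false

open scoped Manifold ContDiff ComplexConjugate Matrix
open MeasureTheory Set Filter Topology
open Vale.Agent.P267.FL

noncomputable section

namespace Vale.Agent.P290.H686

section alg

variable {X : Type*} [TopologicalSpace X] [ChartedSpace C2 X]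

theorem val1_add' (A B : OneF X) (x : X) : val1 (A + B) x = val1 A x + val1 B x := by
  ext v
  simp only [val1, ev1_apply, ContinuousLinearMap.add_apply, Fin.sum_univ_two, OneF.f10_add,
    OneF.f01_add, Pi.add_apply]
  ring

theorem val1_smul' (c : ℂ) (A : OneF X) (x : X) : val1 (c • A) x = c • val1 A x := by
  ext v
  simp only [val1, ev1_apply, ContinuousLinearMap.smul_apply, Fin.sum_univ_two, OneF.f10_smul,
    OneF.f01_smul, Pi.smul_apply, smul_eq_mul]
  ring

theorem val2_add' (A B : TwoF X) (x : X) (v w : C2) :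
    val2 (A + B) x v w = val2 A x v w + val2 B x v w := by
  simp only [val2, ev2_apply, Fin.sum_univ_two, TwoF.f20_add, TwoF.f11_add, TwoF.f02_add,
    Pi.add_apply, Matrix.add_apply]
  ring

theorem val2_smul' (c : ℂ) (A : TwoF X) (x : X) (v w : C2) :
    val2 (c • A) x v w = c * val2 A x v w := by
  simp only [val2, ev2_apply, Fin.sum_univ_two, TwoF.f20_smul, TwoF.f11_smul, TwoF.f02_smul,
    Pi.smul_apply, Matrix.smul_apply, smul_eq_mul]
  ring

theorem val1_bar (A : OneF X) (x : X) (v : C2) : val1 A.bar x v = conj (val1 A x v) := by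
  simp only [val1, ev1_apply, Fin.sum_univ_two, OneF.bar, map_add, map_mul, Complex.conj_conj]
  ring

theorem val2_bar (A : TwoF X) (x : X) (v w : C2) : val2 A.bar x v w = conj (val2 A x v w) := by
  simp only [val2, ev2_apply, Fin.sum_univ_two, TwoF.bar, map_add, map_sub, map_mul,
    Complex.conj_conj, Matrix.of_apply]
  ring

end alg

variable {X : Type*} [TopologicalSpace X] [ChartedSpace C2 X]
variable {Y : Type*} [TopologicalSpace Y] [ChartedSpace C2 Y]

theorem pb1_add (φ : X → Y) (A B : OneF Y) : pb1 φ (A + B) = pb1 φ A + pb1 φ B := by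
  refine val1_inj fun x => ?_
  rw [val1_add', val1_pb1, val1_pb1, val1_pb1, val1_add', ContinuousLinearMap.add_comp]

theorem pb1_smul (φ : X → Y) (c : ℂ) (A : OneF Y) : pb1 φ (c • A) = c • pb1 φ A := by
  refine val1_inj fun x => ?_
  rw [val1_smul', val1_pb1, val1_pb1, val1_smul', ContinuousLinearMap.smul_comp]

theorem pb2_add (φ : X → Y) (A B : TwoF Y) : pb2 φ (A + B) = pb2 φ A + pb2 φ B := by
  refine val2_inj fun x => ?_
  ext v w
  rw [val2_add', val2_pb2_apply, val2_pb2_apply, val2_pb2_apply, val2_add']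

theorem pb2_smul (φ : X → Y) (c : ℂ) (A : TwoF Y) : pb2 φ (c • A) = c • pb2 φ A := by
  refine val2_inj fun x => ?_
  ext v w
  rw [val2_smul', val2_pb2_apply, val2_pb2_apply, val2_smul']

/-- pullback of two-forms as a linear map -/
def pb2L (φ : X → Y) : TwoF Y →ₗ[ℂ] TwoF X where
  toFun := pb2 φ
  map_add' := pb2_add φ
  map_smul' := pb2_smul φ

/-- pullback of one-forms as a linear map -/
def pb1L (φ : X → Y) : OneF Y →ₗ[ℂ] OneF X where
  toFun := pb1 φ
  map_add' := pb1_add φ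
  map_smul' := pb1_smul φ

theorem pb2_zero (φ : X → Y) : pb2 φ 0 = 0 := map_zero (pb2L φ)

theorem pb1_zero (φ : X → Y) : pb1 φ 0 = 0 := map_zero (pb1L φ)

theorem pb2_neg (φ : X → Y) (A : TwoF Y) : pb2 φ (-A) = -pb2 φ A := map_neg (pb2L φ) A

theorem pb2_sub (φ : X → Y) (A B : TwoF Y) : pb2 φ (A - B) = pb2 φ A - pb2 φ B :=
  map_sub (pb2L φ) A B

theorem pb1_neg (φ : X → Y) (A : OneF Y) : pb1 φ (-A) = -pb1 φ A := map_neg (pb1L φ) A

theorem pb1_sub (φ : X → Y) (A B : OneF Y) : pb1 φ (A - B) = pb1 φ A - pb1 φ B :=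
  map_sub (pb1L φ) A B

theorem pb2_sum (φ : X → Y) {κ : Type*} (s : Finset κ) (A : κ → TwoF Y) :
    pb2 φ (∑ i ∈ s, A i) = ∑ i ∈ s, pb2 φ (A i) := map_sum (pb2L φ) A s

theorem pb2_sum_smul (φ : X → Y) {κ : Type*} (s : Finset κ) (t : κ → ℂ) (A : κ → TwoF Y) :
    pb2 φ (∑ i ∈ s, t i • A i) = ∑ i ∈ s, t i • pb2 φ (A i) := by
  rw [pb2_sum]
  exact Finset.sum_congr rfl fun i _ => pb2_smul φ _ _

theorem pb1_bar (φ : X → Y) (A : OneF Y) : pb1 φ A.bar = (pb1 φ A).bar := by
  refine val1_inj fun x => ?_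
  ext v
  rw [val1_bar, val1_pb1, val1_pb1, ContinuousLinearMap.comp_apply, ContinuousLinearMap.comp_apply,
    val1_bar]

theorem pb2_bar (φ : X → Y) (A : TwoF Y) : pb2 φ A.bar = (pb2 φ A).bar := by
  refine val2_inj fun x => ?_
  ext v w
  rw [val2_bar, val2_pb2_apply, val2_pb2_apply, val2_bar]

theorem pb2_real (φ : X → Y) {A : TwoF Y} (h : A.Real) : (pb2 φ A).Real := by
  rw [TwoF.real_iff_bar] at h ⊢
  rw [← pb2_bar, h]

theorem pb1_real (φ : X → Y) {A : OneF Y} (h : A.Real) : (pb1 φ A).Real := by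
  rw [OneF.real_iff_bar] at h ⊢
  rw [← pb1_bar, h]

variable [IsManifold 𝓘(ℂ, C2) ω X] [IsManifold 𝓘(ℂ, C2) ω Y]

theorem pb2_real_iff (φ : X ≃ₜ Y) (hφ : IsDiffeo φ) {A : TwoF Y} : (pb2 φ A).Real ↔ A.Real := by
  refine ⟨fun h => ?_, pb2_real φ⟩
  have := pb2_real φ.symm h
  rwa [pb2_symm_pb2 φ hφ] at this

end Vale.Agent.P290.H686
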