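import Vale.Agent.P290.H686.Rep

/-! P290 / H686 (package DIFFEO): pullback of functions and forms by a real diffeomorphism between
two complex surfaces. -/

set_option linter.unusedVariables false
set_option linter.unusedSectionVars false
set_option linter.unusedSimpArgs false

open scoped Manifold ContDiff ComplexConjugate Matrix
open MeasureTheory Set Filter Topology
open Vale.Agent.P267.FL

noncomputable section

namespace Vale.Agent.P290.H686

variable {X : Type*} [TopologicalSpace X] [ChartedSpace C2 X]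
variable {Y : Type*} [TopologicalSpace Y] [ChartedSpace C2 Y]
variable {Z : Type*} [TopologicalSpace Z] [ChartedSpace C2 Z]

/-- the map `φ` in the charts `e` of `X` and `e'` of `Y` -/
def rep (φ : X → Y) (e : Ch X) (e' : Ch Y) (z : C2) : C2 := e' (φ (e.symm z))

/-- real smoothness of a map between complex surfaces -/
def IsSm (φ : X → Y) : Prop :=
  Continuous φ ∧ ∀ e ∈ atlas C2 X, ∀ e' ∈ atlas C2 Y, ∀ x ∈ e.source, φ x ∈ e'.source →
    ContDiffAt ℝ ∞ (rep φ e e') (e x)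

/-- real differential of `φ` at `x`, in the preferred charts -/
def Df (φ : X → Y) (x : X) : C2 →L[ℝ] C2 :=
  fderiv ℝ (rep φ (chartAt C2 x) (chartAt C2 (φ x))) (chartAt C2 x x)

/-- pullback of one-forms -/
def pb1 (φ : X → Y) (A : OneF Y) : OneF X where
  f10 x i := k10 i ((val1 A (φ x)).comp (Df φ x))
  f01 x i := k01 i ((val1 A (φ x)).comp (Df φ x))

/-- pullback of two-forms -/
def pb2 (φ : X → Y) (F : TwoF Y) : TwoF X where
  f20 x := c20 fun v => (val2 F (φ x)).bilinearComp (Df φ x) (Df φ x) v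
  f11 x := c11 fun v => (val2 F (φ x)).bilinearComp (Df φ x) (Df φ x) v
  f02 x := c02 fun v => (val2 F (φ x)).bilinearComp (Df φ x) (Df φ x) v

/-- pullback of top forms `b dz_0∧dz_1∧dz̄_0∧dz̄_1` -/
def pbT (φ : X → Y) (b : Y → ℂ) (x : X) : ℂ := ((Df φ x).det : ℂ) * b (φ x)

theorem val1_pb1 (φ : X → Y) (A : OneF Y) (x : X) :
    val1 (pb1 φ A) x = (val1 A (φ x)).comp (Df φ x) :=
  ev1_comps _

theorem val2_pb2 (φ : X → Y) (F : TwoF Y) (x : X) :
    val2 (pb2 φ F) x = (val2 F (φ x)).bilinearComp (Df φ x) (Df φ x) :=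
  ev2_comps _ fun v w => by
    rw [ContinuousLinearMap.bilinearComp_apply, ContinuousLinearMap.bilinearComp_apply]
    exact val2_swap _ _ _ _

theorem val2_pb2_apply (φ : X → Y) (F : TwoF Y) (x : X) (v w : C2) :
    val2 (pb2 φ F) x v w = val2 F (φ x) (Df φ x v) (Df φ x w) := by
  rw [val2_pb2, ContinuousLinearMap.bilinearComp_apply]

/-! ### algebraic laws -/

theorem val1_add (A B : OneF X) (x : X) :
    val1 ⟨fun x i => A.f10 x i + B.f10 x i, fun x i => A.f01 x i + B.f01 x i⟩ x =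
      val1 A x + val1 B x := by
  ext v
  simp only [val1, ev1_apply, ContinuousLinearMap.add_apply, Fin.sum_univ_two]
  ring

variable [IsManifold 𝓘(ℂ, C2) ω X] [IsManifold 𝓘(ℂ, C2) ω Y] [IsManifold 𝓘(ℂ, C2) ω Z]

/-! ### chart formulas -/

theorem rep_eventually {φ : X → Y} (hφ : Continuous φ) (e : Ch X) (e' : Ch Y) {x : X}
    (hx : x ∈ e.source) (hx' : φ x ∈ e'.source) :
    ∀ᶠ z in 𝓝 (e x), z ∈ e.target ∧ φ (e.symm z) ∈ e'.source := by
  have h1 := e.open_target.mem_nhds (e.map_source hx)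
  have h2 : ContinuousAt e.symm (e x) := e.continuousAt_symm (e.map_source hx)
  have h3 : ContinuousAt (fun z => φ (e.symm z)) (e x) := hφ.continuousAt.comp h2
  have h4 : ∀ᶠ z in 𝓝 (e x), φ (e.symm z) ∈ e'.source := by
    apply h3.eventually_mem
    simp only [e.left_inv hx]
    exact e'.open_source.mem_nhds hx'
  filter_upwards [h1, h4] with z hz hz'
  exact ⟨hz, hz'⟩

/-- change of charts for the differential -/
theorem Df_Dch {φ : X → Y} (hφ : IsSm φ) {e : Ch X} (he : e ∈ atlas C2 X) {e' : Ch Y}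
    (he' : e' ∈ atlas C2 Y) {x : X} (hx : x ∈ e.source) (hx' : φ x ∈ e'.source) :
    (Df φ x).comp (Dch e x) = (Dch e' (φ x)).comp (fderiv ℝ (rep φ e e') (e x)) := by
  set e₀ := chartAt C2 x with he₀
  set e₁ := chartAt C2 (φ x) with he₁
  have m0 : e₀ ∈ atlas C2 X := chart_mem_atlas C2 x
  have m1 : e₁ ∈ atlas C2 Y := chart_mem_atlas C2 (φ x)
  have s0 : x ∈ e₀.source := mem_chart_source C2 x
  have s1 : φ x ∈ e₁.source := mem_chart_source C2 (φ x)
  have d1 : DifferentiableAt ℝ (rep φ e₀ e₁) (e₀ x) := (hφ.2 e₀ m0 e₁ m1 x s0 s1).differentiableAt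
    (by simp)
  have d2 : DifferentiableAt ℝ (fun z => e₀ (e.symm z)) (e x) :=
    (trans_contDiffAt he m0 hx s0 (n := 1)).differentiableAt (by simp)
  have d3 : DifferentiableAt ℝ (rep φ e e') (e x) := (hφ.2 e he e' he' x hx hx').differentiableAt
    (by simp)
  have d4 : DifferentiableAt ℝ (fun z => e₁ (e'.symm z)) (e' (φ x)) :=
    (trans_contDiffAt he' m1 hx' s1 (n := 1)).differentiableAt (by simp)
  have h1 : (Df φ x).comp (Dch e x) = fderiv ℝ (fun z => rep φ e₀ e₁ (e₀ (e.symm z))) (e x) := by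
    have d1' : DifferentiableAt ℝ (rep φ e₀ e₁) ((fun z => e₀ (e.symm z)) (e x)) := by
      simpa only [e.left_inv hx] using d1
    rw [fderiv_fun_comp (e x) d1' d2]
    simp only [e.left_inv hx]
    rfl
  have h2 : (Dch e' (φ x)).comp (fderiv ℝ (rep φ e e') (e x)) =
      fderiv ℝ (fun z => e₁ (e'.symm (rep φ e e' z))) (e x) := by
    have e1 : rep φ e e' (e x) = e' (φ x) := by rw [rep, e.left_inv hx]
    have d4' : DifferentiableAt ℝ (fun z => e₁ (e'.symm z)) (rep φ e e' (e x)) := by rwa [e1]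
    rw [fderiv_fun_comp (e x) d4' d3, e1]
    rfl
  rw [h1, h2]
  refine Filter.EventuallyEq.fderiv_eq ?_
  filter_upwards [rep_eventually hφ.1 e e' hx hx', rep_eventually hφ.1 e e₁ hx s1,
    (isOpen_trans e e₀).mem_nhds (mem_trans hx s0)] with z hz hz1 hz2
  rw [rep, rep, e₀.left_inv hz2.2, e'.left_inv hz.2]

theorem E1_pb1 {φ : X → Y} (hφ : IsSm φ) (A : OneF Y) {e : Ch X} (he : e ∈ atlas C2 X) {e' : Ch Y}
    (he' : e' ∈ atlas C2 Y) {x : X} (hx : x ∈ e.source) (hx' : φ x ∈ e'.source) :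
    E1 e (pb1 φ A) (e x) = (E1 e' A (e' (φ x))).comp (fderiv ℝ (rep φ e e') (e x)) := by
  rw [E1_apply he _ hx, val1_pb1, E1_apply he' A hx', ContinuousLinearMap.comp_assoc,
    Df_Dch hφ he he' hx hx', ContinuousLinearMap.comp_assoc]

theorem E2_pb2 {φ : X → Y} (hφ : IsSm φ) (F : TwoF Y) {e : Ch X} (he : e ∈ atlas C2 X) {e' : Ch Y}
    (he' : e' ∈ atlas C2 Y) {x : X} (hx : x ∈ e.source) (hx' : φ x ∈ e'.source) :
    E2 e (pb2 φ F) (e x) = (E2 e' F (e' (φ x))).bilinearComp (fderiv ℝ (rep φ e e') (e x))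
      (fderiv ℝ (rep φ e e') (e x)) := by
  have h := Df_Dch hφ he he' hx hx'
  have h' : ∀ v, Df φ x (Dch e x v) = Dch e' (φ x) (fderiv ℝ (rep φ e e') (e x) v) := fun v =>
    congrArg (fun L => L v) h
  ext v w
  rw [ContinuousLinearMap.bilinearComp_apply, E2_apply he _ hx, val2_pb2_apply, E2_apply he' F hx',
    h', h']

theorem rep_apply (φ : X → Y) {e : Ch X} (e' : Ch Y) {x : X} (hx : x ∈ e.source) :
    rep φ e e' (e x) = e' (φ x) := by
  rw [rep, e.left_inv hx]

theorem E1_pb1_eventually {φ : X → Y} (hφ : IsSm φ) (A : OneF Y) {e : Ch X} (he : e ∈ atlas C2 X)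
    {e' : Ch Y} (he' : e' ∈ atlas C2 Y) {x : X} (hx : x ∈ e.source) (hx' : φ x ∈ e'.source) :
    E1 e (pb1 φ A) =ᶠ[𝓝 (e x)] fun z => (E1 e' A (rep φ e e' z)).comp
      (fderiv ℝ (rep φ e e') z) := by
  filter_upwards [rep_eventually hφ.1 e e' hx hx'] with z hz
  have := E1_pb1 hφ A he he' (e.map_target hz.1) hz.2
  rwa [e.right_inv hz.1] at this

theorem E2_pb2_eventually {φ : X → Y} (hφ : IsSm φ) (F : TwoF Y) {e : Ch X} (he : e ∈ atlas C2 X)
    {e' : Ch Y} (he' : e' ∈ atlas C2 Y) {x : X} (hx : x ∈ e.source) (hx' : φ x ∈ e'.source) :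
    E2 e (pb2 φ F) =ᶠ[𝓝 (e x)] fun z => (E2 e' F (rep φ e e' z)).bilinearComp
      (fderiv ℝ (rep φ e e') z) (fderiv ℝ (rep φ e e') z) := by
  filter_upwards [rep_eventually hφ.1 e e' hx hx'] with z hz
  have := E2_pb2 hφ F he he' (e.map_target hz.1) hz.2
  rwa [e.right_inv hz.1] at this

/-! ### smoothness -/

theorem infty_sub : (∞ : WithTop ℕ∞) + 1 ≤ ∞ := by
  rfl

theorem pb1_smooth {φ : X → Y} (hφ : IsSm φ) {A : OneF Y} (hA : A.Smooth) : (pb1 φ A).Smooth := by
  rw [smooth1_iff]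
  intro e he z hz
  obtain ⟨x, hx, rfl⟩ : ∃ x ∈ e.source, e x = z := ⟨e.symm z, e.map_target hz, e.right_inv hz⟩
  set e' := chartAt C2 (φ x) with he'd
  have he' : e' ∈ atlas C2 Y := chart_mem_atlas C2 (φ x)
  have hx' : φ x ∈ e'.source := mem_chart_source C2 (φ x)
  refine ContDiffAt.congr_of_eventuallyEq ?_ (E1_pb1_eventually hφ A he he' hx hx')
  have h1 : ContDiffAt ℝ ∞ (rep φ e e') (e x) := hφ.2 e he e' he' x hx hx'
  have h2 : ContDiffAt ℝ ∞ (E1 e' A) (rep φ e e' (e x)) := by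
    rw [rep_apply φ e' hx]
    exact smooth1_iff.1 hA e' he' _ (e'.map_source hx')
  have h3 : ContDiffAt ℝ ∞ (fun z => E1 e' A (rep φ e e' z)) (e x) :=
    ContDiffAt.comp (g := E1 e' A) (e x) h2 h1
  exact h3.clm_comp (h1.fderiv_right infty_sub)

theorem contDiffAt_of_eval {n : WithTop ℕ∞} {G : C2 → C2 →L[ℝ] C2 →L[ℝ] ℂ} {z : C2}
    (hG : ∀ᶠ y in 𝓝 z, ∀ v w, G y v w = -G y w v) (h : ∀ v w, ContDiffAt ℝ n (fun y => G y v w) z) :
    ContDiffAt ℝ n G z := by
  have h1 : G =ᶠ[𝓝 z] fun y => ev2 (c20 fun v => G y v) (c11 fun v => G y v)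
      (c02 fun v => G y v) := by
    filter_upwards [hG] with y hy
    exact (ev2_comps _ hy).symm
  refine ContDiffAt.congr_of_eventuallyEq (contDiffAt_ev2 ?_ (fun i j => ?_) ?_) h1
  · simp only [c20, k10]
    exact contDiffAt_const.mul ((contDiffAt_const.mul ((h _ _).sub
      (contDiffAt_const.mul (h _ _)))).sub (contDiffAt_const.mul (contDiffAt_const.mul
      ((h _ _).sub (contDiffAt_const.mul (h _ _))))))
  · simp only [c11, Matrix.of_apply, k10, k01]
    exact contDiffAt_const.mul ((contDiffAt_const.mul ((h _ _).add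
      (contDiffAt_const.mul (h _ _)))).sub (contDiffAt_const.mul (contDiffAt_const.mul
      ((h _ _).add (contDiffAt_const.mul (h _ _))))))
  · simp only [c02, k01]
    exact contDiffAt_const.mul ((contDiffAt_const.mul ((h _ _).add
      (contDiffAt_const.mul (h _ _)))).add (contDiffAt_const.mul (contDiffAt_const.mul
      ((h _ _).add (contDiffAt_const.mul (h _ _))))))

theorem contDiffAt_bilinearComp {F : C2 → C2 →L[ℝ] C2 →L[ℝ] ℂ} {L : C2 → C2 →L[ℝ] C2} {z : C2}
    {n : WithTop ℕ∞} (hF : ContDiffAt ℝ n F z) (hL : ContDiffAt ℝ n L z)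
    (hs : ∀ y v w, F y v w = -F y w v) :
    ContDiffAt ℝ n (fun y => (F y).bilinearComp (L y) (L y)) z := by
  refine contDiffAt_of_eval (Eventually.of_forall fun y v w => ?_) fun v w => ?_
  · rw [ContinuousLinearMap.bilinearComp_apply, ContinuousLinearMap.bilinearComp_apply]
    exact hs _ _ _
  · simp only [ContinuousLinearMap.bilinearComp_apply]
    exact (hF.clm_apply (hL.clm_apply contDiffAt_const)).clm_apply (hL.clm_apply contDiffAt_const)

theorem pb2_smooth {φ : X → Y} (hφ : IsSm φ) {F : TwoF Y} (hF : F.Smooth) : (pb2 φ F).Smooth := by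
  rw [smooth2_iff]
  intro e he z hz
  obtain ⟨x, hx, rfl⟩ : ∃ x ∈ e.source, e x = z := ⟨e.symm z, e.map_target hz, e.right_inv hz⟩
  set e' := chartAt C2 (φ x) with he'd
  have he' : e' ∈ atlas C2 Y := chart_mem_atlas C2 (φ x)
  have hx' : φ x ∈ e'.source := mem_chart_source C2 (φ x)
  refine ContDiffAt.congr_of_eventuallyEq ?_ (E2_pb2_eventually hφ F he he' hx hx')
  have h1 : ContDiffAt ℝ ∞ (rep φ e e') (e x) := hφ.2 e he e' he' x hx hx'
  have h2 : ContDiffAt ℝ ∞ (E2 e' F) (rep φ e e' (e x)) := by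
    rw [rep_apply φ e' hx]
    exact smooth2_iff.1 hF e' he' _ (e'.map_source hx')
  have h3 : ContDiffAt ℝ ∞ (fun z => E2 e' F (rep φ e e' z)) (e x) :=
    ContDiffAt.comp (g := E2 e' F) (e x) h2 h1
  exact contDiffAt_bilinearComp h3 (h1.fderiv_right infty_sub) fun y v w => ev2_swap _ _ _ v w

/-! ### `d` commutes with pullback -/

theorem pb1_d {φ : X → Y} (hφ : IsSm φ) {A : OneF Y} (hA : A.Smooth) :
    pb2 φ A.d = (pb1 φ A).d := by
  refine val2_inj fun x => ?_
  ext v w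
  set e := chartAt C2 x with hed
  set e' := chartAt C2 (φ x) with he'd
  have he : e ∈ atlas C2 X := chart_mem_atlas C2 x
  have he' : e' ∈ atlas C2 Y := chart_mem_atlas C2 (φ x)
  have hx : x ∈ e.source := mem_chart_source C2 x
  have hx' : φ x ∈ e'.source := mem_chart_source C2 (φ x)
  rw [val2_d (pb1_smooth hφ hA), val2_pb2_apply, val2_d hA]
  have h1 := alt1_pull (E1_pb1_eventually hφ A he he' hx hx')
    (by rw [rep_apply φ e' hx]; exact differentiableAt_E1 hA he' (e'.map_source hx'))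
    ((hφ.2 e he e' he' x hx hx').of_le ENat.LEInfty.out) v w
  rw [h1, rep_apply φ e' hx]
  rfl

theorem pb2_closed {φ : X → Y} (hφ : IsSm φ) {F : TwoF Y} (hF : F.Smooth) (h : F.Closed) :
    (pb2 φ F).Closed := by
  rw [closed_iff (pb2_smooth hφ hF)]
  intro x u v w
  set e := chartAt C2 x with hed
  set e' := chartAt C2 (φ x) with he'd
  have he : e ∈ atlas C2 X := chart_mem_atlas C2 x
  have he' : e' ∈ atlas C2 Y := chart_mem_atlas C2 (φ x)
  have hx : x ∈ e.source := mem_chart_source C2 x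
  have hx' : φ x ∈ e'.source := mem_chart_source C2 (φ x)
  have h1 := alt2_pull (E2_pb2_eventually hφ F he he' hx hx')
    (differentiableAt_E2 (pb2_smooth hφ hF) he (e.map_source hx))
    (by rw [rep_apply φ e' hx]; exact differentiableAt_E2 hF he' (e'.map_source hx'))
    ((hφ.2 e he e' he' x hx hx').of_le ENat.LEInfty.out)
    (fun v w => ev2_swap _ _ _ v w) u v w
  rw [h1, rep_apply φ e' hx]
  exact (closed_iff' hF).1 h e' he' (φ x) hx' _ _ _

/-! ### functions -/

theorem reg0_comp {V : Type*} [NormedAddCommGroup V] [NormedSpace ℂ V] {φ : X → Y} (hφ : IsSm φ)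
    {s : Y → V} (hs : Reg0 ∞ 0 s) : Reg0 ∞ 0 (fun x => s (φ x)) := by
  intro e he z hz
  refine ContDiffAt.contDiffWithinAt ?_
  obtain ⟨x, hx, rfl⟩ : ∃ x ∈ e.source, e x = z := ⟨e.symm z, e.map_target hz, e.right_inv hz⟩
  set e' := chartAt C2 (φ x) with he'd
  have he' : e' ∈ atlas C2 Y := chart_mem_atlas C2 (φ x)
  have hx' : φ x ∈ e'.source := mem_chart_source C2 (φ x)
  have h1 : ContDiffAt ℝ ∞ (rep φ e e') (e x) := hφ.2 e he e' he' x hx hx'
  have h2 : ContDiffAt ℝ ∞ (loc0 0 e' s) (rep φ e e' (e x)) := by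
    rw [rep_apply φ e' hx]
    exact hs.contDiffAt he' (e'.map_source hx')
  have h3 : ContDiffAt ℝ ∞ (fun z => loc0 0 e' s (rep φ e e' z)) (e x) :=
    ContDiffAt.comp (g := loc0 0 e' s) (e x) h2 h1
  refine h3.congr_of_eventuallyEq ?_
  filter_upwards [rep_eventually hφ.1 e e' hx hx'] with z hz
  rw [LB.loc0_zero, LB.loc0_zero, Function.comp_apply, Function.comp_apply, rep, e'.left_inv hz.2]

/-- value of `ds` -/
theorem val1_dF0 {s : X → ℂ} (x : X) (v : C2) :
    val1 (dF0 s) x v = fderiv ℝ (fun z => s ((chartAt C2 x).symm z)) (chartAt C2 x x) v := by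
  rw [val1, ev1_apply, fderiv_eq_wirt]
  simp only [dF0, del0, dbar0, LB.loc0_zero, smul_eq_mul, Function.comp_def]
  refine Finset.sum_congr rfl fun i _ => ?_
  ring

theorem pb1_dF0 {φ : X → Y} (hφ : IsSm φ) {s : Y → ℂ} (hs : Reg0 ∞ 0 s) :
    pb1 φ (dF0 s) = dF0 (fun x => s (φ x)) := by
  refine val1_inj fun x => ?_
  ext v
  set e := chartAt C2 x with hed
  set e' := chartAt C2 (φ x) with he'd
  have he : e ∈ atlas C2 X := chart_mem_atlas C2 x
  have he' : e' ∈ atlas C2 Y := chart_mem_atlas C2 (φ x)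
  have hx : x ∈ e.source := mem_chart_source C2 x
  have hx' : φ x ∈ e'.source := mem_chart_source C2 (φ x)
  rw [val1_pb1, ContinuousLinearMap.comp_apply, val1_dF0, val1_dF0]
  have h2 : DifferentiableAt ℝ (fun z => s (e'.symm z)) (rep φ e e' (e x)) := by
    rw [rep_apply φ e' hx]
    have := (hs.contDiffAt he' (e'.map_source hx')).differentiableAt (n := ∞) (by simp)
    rwa [LB.loc0_zero] at this
  have h1 : DifferentiableAt ℝ (rep φ e e') (e x) :=
    (hφ.2 e he e' he' x hx hx').differentiableAt (by simp)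
  have h3 : (fun z => s (φ (e.symm z))) =ᶠ[𝓝 (e x)] fun z => s (e'.symm (rep φ e e' z)) := by
    filter_upwards [rep_eventually hφ.1 e e' hx hx'] with z hz
    rw [rep, e'.left_inv hz.2]
  rw [h3.fderiv_eq, fderiv_fun_comp (e x) h2 h1, rep_apply φ e' hx]
  rfl

/-! ### functoriality -/

theorem isSm_id : IsSm (fun x : X => x) := by
  refine ⟨continuous_id, fun e he e' he' x hx hx' => ?_⟩
  exact trans_contDiffAt he he' hx hx'

theorem Df_id (x : X) : Df (fun x : X => x) x = ContinuousLinearMap.id ℝ C2 := Dch_chartAt x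

theorem IsSm.comp {ψ : Y → Z} {φ : X → Y} (hψ : IsSm ψ) (hφ : IsSm φ) :
    IsSm (fun x => ψ (φ x)) := by
  refine ⟨hψ.1.comp hφ.1, fun e he e'' he'' x hx hx'' => ?_⟩
  set e' := chartAt C2 (φ x) with he'd
  have he' : e' ∈ atlas C2 Y := chart_mem_atlas C2 (φ x)
  have hx' : φ x ∈ e'.source := mem_chart_source C2 (φ x)
  have h1 : ContDiffAt ℝ ∞ (rep φ e e') (e x) := hφ.2 e he e' he' x hx hx'
  have h2 : ContDiffAt ℝ ∞ (rep ψ e' e'') (rep φ e e' (e x)) := by
    rw [rep_apply φ e' hx]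
    exact hψ.2 e' he' e'' he'' (φ x) hx' hx''
  have h3 : ContDiffAt ℝ ∞ (fun z => rep ψ e' e'' (rep φ e e' z)) (e x) :=
    ContDiffAt.comp (g := rep ψ e' e'') (e x) h2 h1
  refine h3.congr_of_eventuallyEq ?_
  filter_upwards [rep_eventually hφ.1 e e' hx hx'] with z hz
  rw [rep, rep, rep, e'.left_inv hz.2]

theorem Df_comp {ψ : Y → Z} {φ : X → Y} (hψ : IsSm ψ) (hφ : IsSm φ) (x : X) :
    Df (fun x => ψ (φ x)) x = (Df ψ (φ x)).comp (Df φ x) := by
  set e := chartAt C2 x with hed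
  set e' := chartAt C2 (φ x) with he'd
  set e'' := chartAt C2 (ψ (φ x)) with he''d
  have he : e ∈ atlas C2 X := chart_mem_atlas C2 x
  have he' : e' ∈ atlas C2 Y := chart_mem_atlas C2 (φ x)
  have he'' : e'' ∈ atlas C2 Z := chart_mem_atlas C2 (ψ (φ x))
  have hx : x ∈ e.source := mem_chart_source C2 x
  have hx' : φ x ∈ e'.source := mem_chart_source C2 (φ x)
  have hx'' : ψ (φ x) ∈ e''.source := mem_chart_source C2 (ψ (φ x))
  have h1 : DifferentiableAt ℝ (rep φ e e') (e x) :=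
    (hφ.2 e he e' he' x hx hx').differentiableAt (by simp)
  have h2 : DifferentiableAt ℝ (rep ψ e' e'') (rep φ e e' (e x)) := by
    rw [rep_apply φ e' hx]
    exact (hψ.2 e' he' e'' he'' (φ x) hx' hx'').differentiableAt (by simp)
  have h3 : rep (fun x => ψ (φ x)) e e'' =ᶠ[𝓝 (e x)] fun z => rep ψ e' e'' (rep φ e e' z) := by
    filter_upwards [rep_eventually hφ.1 e e' hx hx'] with z hz
    rw [rep, rep, rep, e'.left_inv hz.2]
  change fderiv ℝ (rep (fun x => ψ (φ x)) e e'') (e x) = _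
  rw [h3.fderiv_eq, fderiv_fun_comp (e x) h2 h1, rep_apply φ e' hx]
  rfl

theorem pb1_id (A : OneF X) : pb1 (fun x : X => x) A = A := by
  refine val1_inj fun x => ?_
  rw [val1_pb1, Df_id, ContinuousLinearMap.comp_id]

theorem pb2_id (F : TwoF X) : pb2 (fun x : X => x) F = F := by
  refine val2_inj fun x => ?_
  ext v w
  rw [val2_pb2_apply, Df_id]
  rfl

theorem pbT_id (b : X → ℂ) : pbT (fun x : X => x) b = b := by
  funext x
  rw [pbT, Df_id]
  have : (ContinuousLinearMap.id ℝ C2).det = 1 := by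
    rw [ContinuousLinearMap.det]
    exact LinearMap.det_id
  rw [this]
  simp

theorem pb1_comp {ψ : Y → Z} {φ : X → Y} (hψ : IsSm ψ) (hφ : IsSm φ) (A : OneF Z) :
    pb1 (fun x => ψ (φ x)) A = pb1 φ (pb1 ψ A) := by
  refine val1_inj fun x => ?_
  rw [val1_pb1, val1_pb1, val1_pb1, Df_comp hψ hφ, ContinuousLinearMap.comp_assoc]

theorem pb2_comp {ψ : Y → Z} {φ : X → Y} (hψ : IsSm ψ) (hφ : IsSm φ) (F : TwoF Z) :
    pb2 (fun x => ψ (φ x)) F = pb2 φ (pb2 ψ F) := by
  refine val2_inj fun x => ?_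
  ext v w
  rw [val2_pb2_apply, val2_pb2_apply, val2_pb2_apply, Df_comp hψ hφ]
  rfl

theorem pbT_comp {ψ : Y → Z} {φ : X → Y} (hψ : IsSm ψ) (hφ : IsSm φ) (b : Z → ℂ) :
    pbT (fun x => ψ (φ x)) b = pbT φ (pbT ψ b) := by
  funext x
  rw [pbT, pbT, pbT, Df_comp hψ hφ]
  have : ((Df ψ (φ x)).comp (Df φ x)).det = (Df ψ (φ x)).det * (Df φ x).det := by
    simp only [ContinuousLinearMap.det]
    exact LinearMap.det_comp _ _
  rw [this]
  push_cast
  ring

end Vale.Agent.P290.H686
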