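import Vale.Agent.P290.H686.Alt


/-! P290 / H686 (package DIFFEO): one- and two-forms of a complex surface in charts, as real
multilinear maps; `d` in an arbitrary chart. -/

set_option linter.unusedVariables false
set_option linter.unusedSectionVars false
set_option linter.unusedSimpArgs false

open scoped Manifold ContDiff ComplexConjugate Matrix
open MeasureTheory Set Filter Topology
open Vale.Agent.P267.FL

noncomputable section

namespace Vale.Agent.P290.H686

variable {X : Type*} [TopologicalSpace X] [ChartedSpace C2 X]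

/-- differential at `x` of the change of coordinates from `e` to the preferred chart -/
def Dch (e : Ch X) (x : X) : C2 →L[ℝ] C2 := fderiv ℝ (fun z => chartAt C2 x (e.symm z)) (e x)

/-- value of a one-form at a point -/
def val1 (A : OneF X) (x : X) : C2 →L[ℝ] ℂ := ev1 (A.f10 x) (A.f01 x)

/-- value of a two-form at a point -/
def val2 (F : TwoF X) (x : X) : C2 →L[ℝ] C2 →L[ℝ] ℂ := ev2 (F.f20 x) (F.f11 x) (F.f02 x)

/-- one-form in the chart `e` -/
def E1 (e : Ch X) (A : OneF X) (z : C2) : C2 →L[ℝ] ℂ :=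
  ev1 (loc10 e A.f10 z) (loc1 0 e A.f01 z)

/-- two-form in the chart `e` -/
def E2 (e : Ch X) (F : TwoF X) (z : C2) : C2 →L[ℝ] C2 →L[ℝ] ℂ :=
  ev2 (loc0 1 e F.f20 z) (loc11 e F.f11 z) (loc2 0 e F.f02 z)

theorem val1_inj {A B : OneF X} (h : ∀ x, val1 A x = val1 B x) : A = B := by
  obtain ⟨a, b⟩ := A
  obtain ⟨c, d⟩ := B
  have h1 : a = c := funext fun x => (ev1_inj (h x)).1
  have h2 : b = d := funext fun x => (ev1_inj (h x)).2
  rw [h1, h2]

theorem val2_inj {F G : TwoF X} (h : ∀ x, val2 F x = val2 G x) : F = G := by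
  obtain ⟨a, b, c⟩ := F
  obtain ⟨a', b', c'⟩ := G
  have h1 : a = a' := funext fun x => (ev2_inj (h x)).1
  have h2 : b = b' := funext fun x => (ev2_inj (h x)).2.1
  have h3 : c = c' := funext fun x => (ev2_inj (h x)).2.2
  rw [h1, h2, h3]

theorem val2_swap (F : TwoF X) (x : X) (v w : C2) : val2 F x v w = -val2 F x w v := ev2_swap _ _ _ v w

variable [IsManifold 𝓘(ℂ, C2) ω X]

theorem Dch_apply {e : Ch X} (he : e ∈ atlas C2 X) {x : X} (hx : x ∈ e.source) (v : C2) :
    Dch e x v = (jac e x).mulVec v := by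
  have h := trans_differentiableAt he (chart_mem_atlas C2 x) hx (mem_chart_source C2 x)
  rw [jac, jacM_mulVec he (chart_mem_atlas C2 x) hx (mem_chart_source C2 x), Dch,
    h.fderiv_restrictScalars ℝ]
  rfl

theorem Dch_chartAt (x : X) : Dch (chartAt C2 x) x = ContinuousLinearMap.id ℝ C2 := by
  ext v i
  rw [Dch_apply (chart_mem_atlas C2 x) (mem_chart_source C2 x), jac_chartAt]
  simp

theorem Dch_comp {e e' : Ch X} (he : e ∈ atlas C2 X) (he' : e' ∈ atlas C2 X) {x : X}
    (hx : x ∈ e.source) (hx' : x ∈ e'.source) :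
    Dch e x = (Dch e' x).comp (fderiv ℝ (fun z => e' (e.symm z)) (e x)) := by
  have h := trans_differentiableAt he he' hx hx'
  ext v i
  rw [ContinuousLinearMap.comp_apply, Dch_apply he hx, Dch_apply he' hx', jac_eq he he' hx hx',
    ← Matrix.mulVec_mulVec, jacM_mulVec he he' hx hx', h.fderiv_restrictScalars ℝ]
  rfl

theorem E1_apply {e : Ch X} (he : e ∈ atlas C2 X) (A : OneF X) {x : X} (hx : x ∈ e.source) :
    E1 e A (e x) = (val1 A x).comp (Dch e x) := by
  ext v
  rw [ContinuousLinearMap.comp_apply, Dch_apply he hx, E1, val1, ev1_apply, ev1_apply]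
  simp only [loc10, loc1, e.left_inv hx, zpow_zero, one_smul, Fin.sum_univ_two, smul_eq_mul,
    Matrix.mulVec, dotProduct, map_add, map_mul]
  ring

theorem E2_apply {e : Ch X} (he : e ∈ atlas C2 X) (F : TwoF X) {x : X} (hx : x ∈ e.source)
    (v w : C2) : E2 e F (e x) v w = val2 F x (Dch e x v) (Dch e x w) := by
  rw [Dch_apply he hx, Dch_apply he hx, E2, val2, ev2_apply, ev2_apply]
  simp only [loc0, loc11, loc2, e.left_inv hx, zpow_zero, one_smul, zpow_one, Fin.sum_univ_two,
    smul_eq_mul, Matrix.of_apply, Matrix.mulVec, dotProduct, map_add, map_mul, Matrix.det_fin_two,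
    map_sub]
  ring

theorem E2_eq {e : Ch X} (he : e ∈ atlas C2 X) (F : TwoF X) {x : X} (hx : x ∈ e.source) :
    E2 e F (e x) = (val2 F x).bilinearComp (Dch e x) (Dch e x) := by
  ext v w
  rw [E2_apply he F hx]
  rfl

/-- chart change -/
theorem E1_change {e e' : Ch X} (he : e ∈ atlas C2 X) (he' : e' ∈ atlas C2 X) (A : OneF X) {x : X}
    (hx : x ∈ e.source) (hx' : x ∈ e'.source) :
    E1 e A (e x) = (E1 e' A (e' x)).comp (fderiv ℝ (fun z => e' (e.symm z)) (e x)) := by
  rw [E1_apply he A hx, E1_apply he' A hx', Dch_comp he he' hx hx']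
  rfl

theorem E2_change {e e' : Ch X} (he : e ∈ atlas C2 X) (he' : e' ∈ atlas C2 X) (F : TwoF X) {x : X}
    (hx : x ∈ e.source) (hx' : x ∈ e'.source) :
    E2 e F (e x) = (E2 e' F (e' x)).bilinearComp (fderiv ℝ (fun z => e' (e.symm z)) (e x))
      (fderiv ℝ (fun z => e' (e.symm z)) (e x)) := by
  ext v w
  rw [ContinuousLinearMap.bilinearComp_apply, E2_apply he F hx, E2_apply he' F hx',
    Dch_comp he he' hx hx', ContinuousLinearMap.comp_apply, ContinuousLinearMap.comp_apply]

/-! ### smoothness -/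

/-- a one-form is smooth iff it is in all charts -/
theorem smooth1_iff {A : OneF X} :
    A.Smooth ↔ ∀ e ∈ atlas C2 X, ∀ z ∈ e.target, ContDiffAt ℝ ∞ (E1 e A) z := by
  constructor
  · intro h e he z hz
    refine contDiffAt_ev1 (fun i => ?_) fun i => ?_
    · exact contDiffAt_pi.1 ((h.s10 e he).contDiffAt (e.open_target.mem_nhds hz)) i
    · exact contDiffAt_pi.1 ((h.s01 e he).contDiffAt (e.open_target.mem_nhds hz)) i
  · intro h
    refine ⟨fun e he z hz => ContDiffAt.contDiffWithinAt ?_,
      fun e he z hz => ContDiffAt.contDiffWithinAt ?_⟩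
    · rw [contDiffAt_pi]
      intro i
      have := contDiffAt_k10 (h e he z hz) i
      simpa only [E1, k10_ev1] using this
    · rw [contDiffAt_pi]
      intro i
      have := contDiffAt_k01 (h e he z hz) i
      simpa only [E1, k01_ev1] using this

/-- a two-form is smooth iff it is in all charts -/
theorem smooth2_iff {F : TwoF X} :
    F.Smooth ↔ ∀ e ∈ atlas C2 X, ∀ z ∈ e.target, ContDiffAt ℝ ∞ (E2 e F) z := by
  constructor
  · intro h e he z hz
    refine contDiffAt_ev2 ?_ (fun i j => ?_) ?_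
    · exact (h.s20 e he).contDiffAt (e.open_target.mem_nhds hz)
    · exact (h.s11 e he i j).contDiffAt (e.open_target.mem_nhds hz)
    · exact (h.s02 e he).contDiffAt (e.open_target.mem_nhds hz)
  · intro h
    refine ⟨fun e he z hz => ContDiffAt.contDiffWithinAt ?_,
      fun e he i j z hz => ContDiffAt.contDiffWithinAt ?_,
      fun e he z hz => ContDiffAt.contDiffWithinAt ?_⟩
    · have := contDiffAt_c20 (h e he z hz)
      simpa only [E2, (c_ev2 _ _ _).1] using this
    · have := contDiffAt_c11 (h e he z hz) i j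
      simpa only [E2, (c_ev2 _ _ _).2.1] using this
    · have := contDiffAt_c02 (h e he z hz)
      simpa only [E2, (c_ev2 _ _ _).2.2] using this

/-! ### `d` in charts -/

/-- smoothness at a point, in the preferred chart -/
theorem trans_contDiffAt {e e' : Ch X} (he : e ∈ atlas C2 X) (he' : e' ∈ atlas C2 X) {x : X}
    (hx : x ∈ e.source) (hx' : x ∈ e'.source) {n : WithTop ℕ∞} :
    ContDiffAt ℝ n (fun z => e' (e.symm z)) (e x) :=
  ((trans_analyticAt he he' hx hx').contDiffAt (n := n)).restrict_scalars ℝ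

theorem E1_change_eventually {e e' : Ch X} (he : e ∈ atlas C2 X) (he' : e' ∈ atlas C2 X)
    (A : OneF X) {x : X} (hx : x ∈ e.source) (hx' : x ∈ e'.source) :
    E1 e A =ᶠ[𝓝 (e x)] fun y => (E1 e' A ((fun z => e' (e.symm z)) y)).comp
      (fderiv ℝ (fun z => e' (e.symm z)) y) := by
  filter_upwards [(isOpen_trans e e').mem_nhds (mem_trans hx hx')] with z hz
  have := E1_change he he' A (e.map_target hz.1) hz.2
  rwa [e.right_inv hz.1] at this

theorem E2_change_eventually {e e' : Ch X} (he : e ∈ atlas C2 X) (he' : e' ∈ atlas C2 X)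
    (F : TwoF X) {x : X} (hx : x ∈ e.source) (hx' : x ∈ e'.source) :
    E2 e F =ᶠ[𝓝 (e x)] fun y => (E2 e' F ((fun z => e' (e.symm z)) y)).bilinearComp
      (fderiv ℝ (fun z => e' (e.symm z)) y) (fderiv ℝ (fun z => e' (e.symm z)) y) := by
  filter_upwards [(isOpen_trans e e').mem_nhds (mem_trans hx hx')] with z hz
  have := E2_change he he' F (e.map_target hz.1) hz.2
  rwa [e.right_inv hz.1] at this

/-- value of `dA` -/
theorem val2_d {A : OneF X} (hA : A.Smooth) (x : X) (v w : C2) :
    val2 A.d x v w = alt1 (E1 (chartAt C2 x) A) (chartAt C2 x x) v w := by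
  have hc : ∀ i, DifferentiableAt ℝ (fun y => loc10 (chartAt C2 x) A.f10 y i) (chartAt C2 x x) :=
    fun i => (contDiffAt_pi.1 ((hA.s10 _ (chart_mem_atlas C2 x)).contDiffAt
      ((chartAt C2 x).open_target.mem_nhds (mem_chart_target C2 x))) i).differentiableAt (by simp)
  have ha : ∀ i, DifferentiableAt ℝ (fun y => loc1 0 (chartAt C2 x) A.f01 y i) (chartAt C2 x x) :=
    fun i => (contDiffAt_pi.1 ((hA.s01 _ (chart_mem_atlas C2 x)).contDiffAt
      ((chartAt C2 x).open_target.mem_nhds (mem_chart_target C2 x))) i).differentiableAt (by simp)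
  have h := alt1_ev1 hc ha v w
  rw [show E1 (chartAt C2 x) A = fun y => ev1 (loc10 (chartAt C2 x) A.f10 y)
    (loc1 0 (chartAt C2 x) A.f01 y) from rfl, h, val2]
  congr 2

/-- `dA` in an arbitrary chart -/
theorem E2_d {A : OneF X} (hA : A.Smooth) {e : Ch X} (he : e ∈ atlas C2 X) {x : X}
    (hx : x ∈ e.source) (v w : C2) : E2 e A.d (e x) v w = alt1 (E1 e A) (e x) v w := by
  have h1 := alt1_pull (E1_change_eventually he (chart_mem_atlas C2 x) A hx (mem_chart_source C2 x))
    (by
      have := (smooth1_iff.1 hA _ (chart_mem_atlas C2 x) _ (mem_chart_target C2 x)).differentiableAt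
        (by simp)
      simpa only [e.left_inv hx] using this)
    (trans_contDiffAt he (chart_mem_atlas C2 x) hx (mem_chart_source C2 x)) v w
  rw [h1, E2_apply he _ hx, val2_d hA]
  simp only [e.left_inv hx]
  rfl

/-- closedness in the preferred charts -/
theorem closed_iff {F : TwoF X} (hF : F.Smooth) :
    F.Closed ↔ ∀ x u v w, alt2 (E2 (chartAt C2 x) F) (chartAt C2 x x) u v w = 0 := by
  have key : ∀ x u v w, alt2 (E2 (chartAt C2 x) F) (chartAt C2 x x) u v w =
      ev3 (F.d21 x) (F.d12 x) u v w := by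
    intro x u v w
    have hf : DifferentiableAt ℝ (loc0 1 (chartAt C2 x) F.f20) (chartAt C2 x x) :=
      ((hF.s20 _ (chart_mem_atlas C2 x)).contDiffAt
        ((chartAt C2 x).open_target.mem_nhds (mem_chart_target C2 x))).differentiableAt (by simp)
    have hg : ∀ i j, DifferentiableAt ℝ (fun y => loc11 (chartAt C2 x) F.f11 y i j)
        (chartAt C2 x x) := fun i j => ((hF.s11 _ (chart_mem_atlas C2 x) i j).contDiffAt
        ((chartAt C2 x).open_target.mem_nhds (mem_chart_target C2 x))).differentiableAt (by simp)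
    have hh : DifferentiableAt ℝ (loc2 0 (chartAt C2 x) F.f02) (chartAt C2 x x) :=
      ((hF.s02 _ (chart_mem_atlas C2 x)).contDiffAt
        ((chartAt C2 x).open_target.mem_nhds (mem_chart_target C2 x))).differentiableAt (by simp)
    exact alt2_ev2 hf hg hh u v w
  constructor
  · rintro ⟨h1, h2⟩ x u v w
    rw [key]
    exact (ev3_eq_zero_iff _ _).2 ⟨h1 x, h2 x⟩ u v w
  · intro h
    have : ∀ x, (∀ j, F.d21 x j = 0) ∧ ∀ i, F.d12 x i = 0 := fun x =>
      (ev3_eq_zero_iff _ _).1 fun u v w => by rw [← key, h]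
    exact ⟨fun x => (this x).1, fun x => (this x).2⟩

theorem differentiableAt_E2 {F : TwoF X} (hF : F.Smooth) {e : Ch X} (he : e ∈ atlas C2 X) {z : C2}
    (hz : z ∈ e.target) : DifferentiableAt ℝ (E2 e F) z :=
  (smooth2_iff.1 hF e he z hz).differentiableAt (by simp)

theorem differentiableAt_E1 {A : OneF X} (hA : A.Smooth) {e : Ch X} (he : e ∈ atlas C2 X) {z : C2}
    (hz : z ∈ e.target) : DifferentiableAt ℝ (E1 e A) z :=
  (smooth1_iff.1 hA e he z hz).differentiableAt (by simp)

/-- closedness in all charts -/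
theorem closed_iff' {F : TwoF X} (hF : F.Smooth) :
    F.Closed ↔ ∀ e ∈ atlas C2 X, ∀ x ∈ e.source, ∀ u v w, alt2 (E2 e F) (e x) u v w = 0 := by
  rw [closed_iff hF]
  constructor
  · intro h e he x hx u v w
    have h1 := alt2_pull
      (E2_change_eventually he (chart_mem_atlas C2 x) F hx (mem_chart_source C2 x))
      (differentiableAt_E2 hF he (e.map_source hx))
      (by
        have := differentiableAt_E2 hF (chart_mem_atlas C2 x) (mem_chart_target C2 x)
        simpa only [e.left_inv hx] using this)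
      (trans_contDiffAt he (chart_mem_atlas C2 x) hx (mem_chart_source C2 x))
      (fun v w => ev2_swap _ _ _ v w) u v w
    rw [h1]
    simp only [e.left_inv hx]
    exact h x _ _ _
  · intro h x u v w
    exact h _ (chart_mem_atlas C2 x) x (mem_chart_source C2 x) u v w

end Vale.Agent.P290.H686
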