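import Vale.Agent.P290.H686.Pull
import Mathlib.LinearAlgebra.Determinant

/-! P290 / H686 (package DIFFEO): the wedge product of two-forms under pullback. -/

set_option linter.unusedVariables false
set_option linter.unusedSectionVars false
set_option linter.unusedSimpArgs false

open scoped Manifold ContDiff ComplexConjugate Matrix
open MeasureTheory Set Filter Topology
open Vale.Agent.P267.FL

noncomputable section

namespace Vale.Agent.P290.H686

/-- the value of `T ∧ S` on four vectors -/
def wd (T S : C2 →L[ℝ] C2 →L[ℝ] ℂ) (a b c d : C2) : ℂ :=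
  T a b * S c d + T c d * S a b - T a c * S b d - T b d * S a c + T a d * S b c + T b c * S a d

theorem fin4 (i : Fin 4) : i = 0 ∨ i = 1 ∨ i = 2 ∨ i = 3 := by
  fin_cases i <;> simp

theorem fin4_01 : (0 : Fin 4) ≠ 1 := by decide
theorem fin4_02 : (0 : Fin 4) ≠ 2 := by decide
theorem fin4_03 : (0 : Fin 4) ≠ 3 := by decide
theorem fin4_12 : (1 : Fin 4) ≠ 2 := by decide
theorem fin4_13 : (1 : Fin 4) ≠ 3 := by decide
theorem fin4_23 : (2 : Fin 4) ≠ 3 := by decide

theorem wd_z1 (T S : C2 →L[ℝ] C2 →L[ℝ] ℂ) (hT : ∀ v w, T v w = -T w v)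
    (hS : ∀ v w, S v w = -S w v) (a b c d : C2) (h : a = b) : wd T S a b c d = 0 := by
  subst h
  have hT0 : ∀ v, T v v = 0 := fun v => by linear_combination (1 / 2 : ℂ) * hT v v
  have hS0 : ∀ v, S v v = 0 := fun v => by linear_combination (1 / 2 : ℂ) * hS v v
  rw [wd]
  linear_combination S c d * hT0 a + T c d * hS0 a

theorem wd_z2 (T S : C2 →L[ℝ] C2 →L[ℝ] ℂ) (hT : ∀ v w, T v w = -T w v)
    (hS : ∀ v w, S v w = -S w v) (a b c d : C2) (h : a = c) : wd T S a b c d = 0 := by
  subst h
  have hT0 : ∀ v, T v v = 0 := fun v => by linear_combination (1 / 2 : ℂ) * hT v v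
  have hS0 : ∀ v, S v v = 0 := fun v => by linear_combination (1 / 2 : ℂ) * hS v v
  rw [wd]
  linear_combination T a d * hS b a + S a d * hT b a - S b d * hT0 a - T b d * hS0 a

theorem wd_z3 (T S : C2 →L[ℝ] C2 →L[ℝ] ℂ) (hT : ∀ v w, T v w = -T w v)
    (hS : ∀ v w, S v w = -S w v) (a b c d : C2) (h : a = d) : wd T S a b c d = 0 := by
  subst h
  have hT0 : ∀ v, T v v = 0 := fun v => by linear_combination (1 / 2 : ℂ) * hT v v
  have hS0 : ∀ v, S v v = 0 := fun v => by linear_combination (1 / 2 : ℂ) * hS v v
  rw [wd]
  linear_combination T a b * hS c a + S a b * hT c a - T a c * hS b a - S a c * hT b a +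
    S b c * hT0 a + T b c * hS0 a

theorem wd_z4 (T S : C2 →L[ℝ] C2 →L[ℝ] ℂ) (hT : ∀ v w, T v w = -T w v)
    (hS : ∀ v w, S v w = -S w v) (a b c d : C2) (h : b = c) : wd T S a b c d = 0 := by
  subst h
  have hT0 : ∀ v, T v v = 0 := fun v => by linear_combination (1 / 2 : ℂ) * hT v v
  have hS0 : ∀ v, S v v = 0 := fun v => by linear_combination (1 / 2 : ℂ) * hS v v
  rw [wd]
  linear_combination T a d * hS0 b + S a d * hT0 b

theorem wd_z5 (T S : C2 →L[ℝ] C2 →L[ℝ] ℂ) (hT : ∀ v w, T v w = -T w v)
    (hS : ∀ v w, S v w = -S w v) (a b c d : C2) (h : b = d) : wd T S a b c d = 0 := by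
  subst h
  have hT0 : ∀ v, T v v = 0 := fun v => by linear_combination (1 / 2 : ℂ) * hT v v
  have hS0 : ∀ v, S v v = 0 := fun v => by linear_combination (1 / 2 : ℂ) * hS v v
  rw [wd]
  linear_combination T a b * hS c b + S a b * hT c b - T a c * hS0 b - S a c * hT0 b

theorem wd_z6 (T S : C2 →L[ℝ] C2 →L[ℝ] ℂ) (hT : ∀ v w, T v w = -T w v)
    (hS : ∀ v w, S v w = -S w v) (a b c d : C2) (h : c = d) : wd T S a b c d = 0 := by
  subst h
  have hT0 : ∀ v, T v v = 0 := fun v => by linear_combination (1 / 2 : ℂ) * hT v v
  have hS0 : ∀ v, S v v = 0 := fun v => by linear_combination (1 / 2 : ℂ) * hS v v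
  rw [wd]
  linear_combination T a b * hS0 c + S a b * hT0 c

theorem wd_zero (T S : C2 →L[ℝ] C2 →L[ℝ] ℂ) (hT : ∀ v w, T v w = -T w v)
    (hS : ∀ v w, S v w = -S w v) (m : Fin 4 → C2) (i j : Fin 4) (h : m i = m j) (hij : i ≠ j) :
    wd T S (m 0) (m 1) (m 2) (m 3) = 0 := by
  obtain rfl | rfl | rfl | rfl := fin4 i <;> obtain rfl | rfl | rfl | rfl := fin4 j
  · exact absurd rfl hij
  · exact wd_z1 T S hT hS _ _ _ _ h
  · exact wd_z2 T S hT hS _ _ _ _ h
  · exact wd_z3 T S hT hS _ _ _ _ h
  · exact wd_z1 T S hT hS _ _ _ _ h.symm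
  · exact absurd rfl hij
  · exact wd_z4 T S hT hS _ _ _ _ h
  · exact wd_z5 T S hT hS _ _ _ _ h
  · exact wd_z2 T S hT hS _ _ _ _ h.symm
  · exact wd_z4 T S hT hS _ _ _ _ h.symm
  · exact absurd rfl hij
  · exact wd_z6 T S hT hS _ _ _ _ h
  · exact wd_z3 T S hT hS _ _ _ _ h.symm
  · exact wd_z5 T S hT hS _ _ _ _ h.symm
  · exact wd_z6 T S hT hS _ _ _ _ h.symm
  · exact absurd rfl hij

/-- the real part of `T ∧ S` composed with a real linear form, as an alternating map -/
def wdA (ℓ : ℂ →ₗ[ℝ] ℝ) (T S : C2 →L[ℝ] C2 →L[ℝ] ℂ) (hT : ∀ v w, T v w = -T w v)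
    (hS : ∀ v w, S v w = -S w v) : C2 [⋀^Fin 4]→ₗ[ℝ] ℝ where
  toFun m := ℓ (wd T S (m 0) (m 1) (m 2) (m 3))
  map_update_add' m i x y := by
    have h01 := fin4_01
    have h02 := fin4_02
    have h03 := fin4_03
    have h12 := fin4_12
    have h13 := fin4_13
    have h23 := fin4_23
    rw [← map_add]
    congr 1
    obtain rfl | rfl | rfl | rfl := fin4 i
    · rw [Function.update_self, Function.update_self, Function.update_self,
        Function.update_of_ne h01.symm, Function.update_of_ne h01.symm,
        Function.update_of_ne h01.symm, Function.update_of_ne h02.symm,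
        Function.update_of_ne h02.symm, Function.update_of_ne h02.symm,
        Function.update_of_ne h03.symm, Function.update_of_ne h03.symm,
        Function.update_of_ne h03.symm]
      simp only [wd, map_add, ContinuousLinearMap.add_apply]
      ring
    · rw [Function.update_self, Function.update_self, Function.update_self,
        Function.update_of_ne h01, Function.update_of_ne h01,
        Function.update_of_ne h01, Function.update_of_ne h12.symm,
        Function.update_of_ne h12.symm, Function.update_of_ne h12.symm,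
        Function.update_of_ne h13.symm, Function.update_of_ne h13.symm,
        Function.update_of_ne h13.symm]
      simp only [wd, map_add, ContinuousLinearMap.add_apply]
      ring
    · rw [Function.update_self, Function.update_self, Function.update_self,
        Function.update_of_ne h02, Function.update_of_ne h02,
        Function.update_of_ne h02, Function.update_of_ne h12,
        Function.update_of_ne h12, Function.update_of_ne h12,
        Function.update_of_ne h23.symm, Function.update_of_ne h23.symm,
        Function.update_of_ne h23.symm]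
      simp only [wd, map_add, ContinuousLinearMap.add_apply]
      ring
    · rw [Function.update_self, Function.update_self, Function.update_self,
        Function.update_of_ne h03, Function.update_of_ne h03,
        Function.update_of_ne h03, Function.update_of_ne h13,
        Function.update_of_ne h13, Function.update_of_ne h13,
        Function.update_of_ne h23, Function.update_of_ne h23,
        Function.update_of_ne h23]
      simp only [wd, map_add, ContinuousLinearMap.add_apply]
      ring
  map_update_smul' m i c x := by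
    have h01 := fin4_01
    have h02 := fin4_02
    have h03 := fin4_03
    have h12 := fin4_12
    have h13 := fin4_13
    have h23 := fin4_23
    rw [← map_smul]
    congr 1
    obtain rfl | rfl | rfl | rfl := fin4 i
    · rw [Function.update_self, Function.update_self,
        Function.update_of_ne h01.symm, Function.update_of_ne h01.symm,
        Function.update_of_ne h02.symm,
        Function.update_of_ne h02.symm, Function.update_of_ne h03.symm,
        Function.update_of_ne h03.symm]
      simp only [wd, map_smul, ContinuousLinearMap.smul_apply, Complex.real_smul]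
      ring
    · rw [Function.update_self, Function.update_self,
        Function.update_of_ne h01, Function.update_of_ne h01,
        Function.update_of_ne h12.symm,
        Function.update_of_ne h12.symm, Function.update_of_ne h13.symm,
        Function.update_of_ne h13.symm]
      simp only [wd, map_smul, ContinuousLinearMap.smul_apply, Complex.real_smul]
      ring
    · rw [Function.update_self, Function.update_self,
        Function.update_of_ne h02, Function.update_of_ne h02,
        Function.update_of_ne h12,
        Function.update_of_ne h12, Function.update_of_ne h23.symm,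
        Function.update_of_ne h23.symm]
      simp only [wd, map_smul, ContinuousLinearMap.smul_apply, Complex.real_smul]
      ring
    · rw [Function.update_self, Function.update_self,
        Function.update_of_ne h03, Function.update_of_ne h03,
        Function.update_of_ne h13,
        Function.update_of_ne h13, Function.update_of_ne h23,
        Function.update_of_ne h23]
      simp only [wd, map_smul, ContinuousLinearMap.smul_apply, Complex.real_smul]
      ring
  map_eq_zero_of_eq' m i j h hij := by
    rw [wd_zero T S hT hS m i j h hij, map_zero]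

theorem wdA_apply (ℓ : ℂ →ₗ[ℝ] ℝ) (T S : C2 →L[ℝ] C2 →L[ℝ] ℂ) (hT : ∀ v w, T v w = -T w v)
    (hS : ∀ v w, S v w = -S w v) (m : Fin 4 → C2) :
    wdA ℓ T S hT hS m = ℓ (wd T S (m 0) (m 1) (m 2) (m 3)) := rfl

/-- a top degree alternating map composed with a linear map is multiplied by the determinant -/
theorem alt_comp_det (f : C2 [⋀^Fin 4]→ₗ[ℝ] ℝ) (L : C2 →L[ℝ] C2) (m : Fin 4 → C2) :
    f (fun i => L (m i)) = L.det * f m := by
  have hfr : Module.finrank ℝ C2 = 4 := by
    rw [← Module.finrank_mul_finrank ℝ ℂ C2, Complex.finrank_real_complex]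
    simp
  let b : Module.Basis (Fin 4) ℝ C2 := Module.finBasisOfFinrankEq ℝ C2 hfr
  have h1 := f.eq_smul_basis_det b
  have h2 : b.det (fun i => L (m i)) = L.det * b.det m := by
    have := b.det_comp (L : C2 →ₗ[ℝ] C2) m
    exact this
  calc f (fun i => L (m i)) = (f b • b.det) (fun i => L (m i)) := by rw [← h1]
    _ = f b * b.det (fun i => L (m i)) := rfl
    _ = L.det * (f b * b.det m) := by rw [h2]; ring
    _ = L.det * (f b • b.det) m := rfl
    _ = L.det * f m := by rw [← h1]

theorem wd_comp (T S : C2 →L[ℝ] C2 →L[ℝ] ℂ) (hT : ∀ v w, T v w = -T w v)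
    (hS : ∀ v w, S v w = -S w v) (L : C2 →L[ℝ] C2) (a b c d : C2) :
    wd T S (L a) (L b) (L c) (L d) = (L.det : ℂ) * wd T S a b c d := by
  have h := fun ℓ : ℂ →ₗ[ℝ] ℝ => alt_comp_det (wdA ℓ T S hT hS) L ![a, b, c, d]
  have h1 := h Complex.reLm
  have h2 := h Complex.imLm
  simp only [wdA_apply, Complex.reLm_coe, Complex.imLm_coe] at h1 h2
  apply Complex.ext
  · rw [Complex.re_ofReal_mul]
    exact h1
  · rw [Complex.im_ofReal_mul]
    exact h2

/-- `F ∧ G` on the standard real basis -/
theorem wd_ev2 (f f' h h' : ℂ) (g g' : Matrix (Fin 2) (Fin 2) ℂ) :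
    wd (ev2 f g h) (ev2 f' g' h') (Pi.single 0 1) (Pi.single 0 Complex.I) (Pi.single 1 1)
      (Pi.single 1 Complex.I) =
      4 * (f * h' + h * f' - (g 0 0 * g' 1 1 + g 1 1 * g' 0 0 - g 0 1 * g' 1 0 - g 1 0 * g' 0 1)) := by
  have hI : Complex.I * Complex.I = -1 := Complex.I_mul_I
  have hI2 : Complex.I ^ 2 = -1 := by rw [sq, hI]
  simp only [wd, ev2_apply, Fin.sum_univ_two]
  simp
  ring_nf
  simp only [hI2]
  ring

/-- the wedge product of two-forms, pulled back -/
theorem wedge_pb2 {X : Type*} [TopologicalSpace X] [ChartedSpace C2 X]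
    {Y : Type*} [TopologicalSpace Y] [ChartedSpace C2 Y] (φ : X → Y) (F G : TwoF Y) :
    (pb2 φ F).wedge (pb2 φ G) = pbT φ (F.wedge G) := by
  funext x
  have h1 := wd_comp (val2 F (φ x)) (val2 G (φ x)) (val2_swap F _) (val2_swap G _) (Df φ x)
    (Pi.single 0 1) (Pi.single 0 Complex.I) (Pi.single 1 1) (Pi.single 1 Complex.I)
  have h2 : ∀ a b c d, wd (val2 (pb2 φ F) x) (val2 (pb2 φ G) x) a b c d =
      wd (val2 F (φ x)) (val2 G (φ x)) (Df φ x a) (Df φ x b) (Df φ x c) (Df φ x d) := by
    intro a b c d
    simp only [wd, val2_pb2_apply]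
  rw [← h2] at h1
  simp only [val2] at h1
  rw [wd_ev2, wd_ev2] at h1
  rw [pbT, TwoF.wedge, TwoF.wedge]
  have h4 : (4 : ℂ) ≠ 0 := by norm_num
  apply mul_left_cancel₀ h4
  rw [h1]
  ring

end Vale.Agent.P290.H686
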